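import Vale.Agent.Lib.P075.ContStep

/-!
# Continuity of the form in `L^1` for uniformly bounded inputs
-/

open MeasureTheory Set

namespace Vale.Agent.Lib.P075.Cont

/-- The quadrant. -/
abbrev Q : Set (ℝ × ℝ) := Ici (0 : ℝ) ×ˢ Ici (0 : ℝ)

/-- A measurable function, bounded by `M`, vanishing on the quadrant outside `[0,R)^2`. -/
structure Good (M R : ℝ) (F : ℝ → ℝ → ℝ) : Prop where
  meas : Measurable (Function.uncurry F)
  bdd : ∀ x y, |F x y| ≤ M
  supp : ∀ x y, 0 ≤ x → 0 ≤ y → (R ≤ x ∨ R ≤ y) → F x y = 0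

lemma integrableOn_of_bdd {g : ℝ × ℝ → ℝ} (hg : Measurable g) {B : ℝ} (hB : ∀ p, |g p| ≤ B)
    {s : Set (ℝ × ℝ)} (hs : volume s ≠ ⊤) : IntegrableOn g s :=
  Measure.integrableOn_of_bounded hs hg.aestronglyMeasurable
    (Filter.Eventually.of_forall (fun p => by simpa [Real.norm_eq_abs] using hB p))

lemma volume_box (R : ℝ) : volume (Ico (0 : ℝ) R ×ˢ Ico (0 : ℝ) R) ≠ ⊤ := by
  rw [Measure.volume_eq_prod, Measure.prod_prod]
  simp [Real.volume_Ico, ENNReal.mul_eq_top]

/-- A function bounded, measurable and vanishing outside `[0,R)^2` on the quadrant is integrable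
on the quadrant. -/
lemma integrableOn_Q {g : ℝ × ℝ → ℝ} (hg : Measurable g) {B R : ℝ} (hB : ∀ p, |g p| ≤ B)
    (hs : ∀ p : ℝ × ℝ, 0 ≤ p.1 → 0 ≤ p.2 → (R ≤ p.1 ∨ R ≤ p.2) → g p = 0) :
    IntegrableOn g Q := by
  have h1 : IntegrableOn g (Ico (0 : ℝ) R ×ˢ Ico (0 : ℝ) R) :=
    integrableOn_of_bdd hg hB (volume_box R)
  refine h1.of_forall_sdiff_eq_zero (measurableSet_Ici.prod measurableSet_Ici) ?_
  rintro ⟨x, y⟩ ⟨⟨hx, hy⟩, hn⟩
  simp only [mem_Ici] at hx hy
  simp only [mem_prod, mem_Ico, not_and_or, not_lt, not_le] at hn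
  apply hs _ hx hy
  rcases hn with (h | h) | (h | h)
  · linarith
  · exact Or.inl h
  · linarith
  · exact Or.inr h

section Fubini

variable {A B C : Set ℝ}

lemma meas_bdd_int {g : ℝ × ℝ → ℝ} (hg : Measurable g) {b : ℝ} (hb : ∀ p, |g p| ≤ b)
    {s : Set ℝ} {t : Set ℝ} (hs : volume s ≠ ⊤) (ht : volume t ≠ ⊤) :
    Integrable g ((volume.restrict s).prod (volume.restrict t)) := by
  have : IsFiniteMeasure (volume.restrict s) := ⟨by simpa using hs.lt_top⟩
  have : IsFiniteMeasure (volume.restrict t) := ⟨by simpa using ht.lt_top⟩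
  exact Integrable.of_bound hg.aestronglyMeasurable b
    (Filter.Eventually.of_forall (fun p => by simpa [Real.norm_eq_abs] using hb p))

/-- Integration of a function of `(x0,x1)` on a box in `ℝ³`. -/
lemma int3_a {g : ℝ × ℝ → ℝ} (hg : Measurable g) {b : ℝ} (hb : ∀ p, |g p| ≤ b)
    (hA : volume A ≠ ⊤) (hB : volume B ≠ ⊤) (hC : volume C ≠ ⊤) :
    ∫ x : ℝ × ℝ × ℝ in A ×ˢ B ×ˢ C, g (x.1, x.2.1)
      = (volume C).toReal * ∫ p : ℝ × ℝ in A ×ˢ B, g p := by
  have : IsFiniteMeasure (volume.restrict A) := ⟨by simpa using hA.lt_top⟩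
  have : IsFiniteMeasure (volume.restrict B) := ⟨by simpa using hB.lt_top⟩
  have : IsFiniteMeasure (volume.restrict C) := ⟨by simpa using hC.lt_top⟩
  simp only [Measure.volume_eq_prod]
  rw [← Measure.prod_restrict, ← Measure.prod_restrict, ← Measure.prod_restrict]
  have hi : Integrable (fun x : ℝ × ℝ × ℝ => g (x.1, x.2.1))
      ((volume.restrict A).prod ((volume.restrict B).prod (volume.restrict C))) := by
    refine Integrable.of_bound ?_ b
      (Filter.Eventually.of_forall (fun p => by simpa [Real.norm_eq_abs] using hb _))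
    exact (hg.comp (by fun_prop)).aestronglyMeasurable
  rw [integral_prod _ hi, integral_prod _ (meas_bdd_int hg hb hA hB)]
  rw [← integral_const_mul]
  apply integral_congr_ae
  refine Filter.Eventually.of_forall (fun x0 => ?_)
  simp only
  have hi2 : Integrable (fun y : ℝ × ℝ => g (x0, y.1))
      ((volume.restrict B).prod (volume.restrict C)) := by
    refine Integrable.of_bound ?_ b
      (Filter.Eventually.of_forall (fun p => by simpa [Real.norm_eq_abs] using hb _))
    exact (hg.comp (by fun_prop)).aestronglyMeasurable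
  rw [integral_prod _ hi2, ← integral_const_mul]
  apply integral_congr_ae
  refine Filter.Eventually.of_forall (fun x1 => ?_)
  simp only [integral_const, smul_eq_mul, Measure.real, Measure.restrict_apply MeasurableSet.univ,
    univ_inter]

/-- Integration of a function of `(x1,x2)` on a box in `ℝ³`. -/
lemma int3_b {g : ℝ × ℝ → ℝ} (hg : Measurable g) {b : ℝ} (hb : ∀ p, |g p| ≤ b)
    (hA : volume A ≠ ⊤) (hB : volume B ≠ ⊤) (hC : volume C ≠ ⊤) :
    ∫ x : ℝ × ℝ × ℝ in A ×ˢ B ×ˢ C, g (x.2.1, x.2.2)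
      = (volume A).toReal * ∫ p : ℝ × ℝ in B ×ˢ C, g p := by
  have : IsFiniteMeasure (volume.restrict A) := ⟨by simpa using hA.lt_top⟩
  have : IsFiniteMeasure (volume.restrict B) := ⟨by simpa using hB.lt_top⟩
  have : IsFiniteMeasure (volume.restrict C) := ⟨by simpa using hC.lt_top⟩
  simp only [Measure.volume_eq_prod]
  rw [← Measure.prod_restrict, ← Measure.prod_restrict]
  have hi : Integrable (fun x : ℝ × ℝ × ℝ => g (x.2.1, x.2.2))
      ((volume.restrict A).prod ((volume.restrict B).prod (volume.restrict C))) := by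
    refine Integrable.of_bound ?_ b
      (Filter.Eventually.of_forall (fun p => by simpa [Real.norm_eq_abs] using hb _))
    exact (hg.comp (by fun_prop)).aestronglyMeasurable
  rw [integral_prod _ hi]
  simp only [Prod.mk.eta, integral_const, smul_eq_mul, Measure.real,
    Measure.restrict_apply MeasurableSet.univ, univ_inter]

/-- Integration of a function of `(x2,x0)` on a box in `ℝ³`. -/
lemma int3_c {g : ℝ × ℝ → ℝ} (hg : Measurable g) {b : ℝ} (hb : ∀ p, |g p| ≤ b)
    (hA : volume A ≠ ⊤) (hB : volume B ≠ ⊤) (hC : volume C ≠ ⊤) :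
    ∫ x : ℝ × ℝ × ℝ in A ×ˢ B ×ˢ C, g (x.2.2, x.1)
      = (volume B).toReal * ∫ p : ℝ × ℝ in C ×ˢ A, g p := by
  have : IsFiniteMeasure (volume.restrict A) := ⟨by simpa using hA.lt_top⟩
  have : IsFiniteMeasure (volume.restrict B) := ⟨by simpa using hB.lt_top⟩
  have : IsFiniteMeasure (volume.restrict C) := ⟨by simpa using hC.lt_top⟩
  simp only [Measure.volume_eq_prod]
  rw [← Measure.prod_restrict, ← Measure.prod_restrict, ← Measure.prod_restrict]
  have hi : Integrable (fun x : ℝ × ℝ × ℝ => g (x.2.2, x.1))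
      ((volume.restrict A).prod ((volume.restrict B).prod (volume.restrict C))) := by
    refine Integrable.of_bound ?_ b
      (Filter.Eventually.of_forall (fun p => by simpa [Real.norm_eq_abs] using hb _))
    exact (hg.comp (by fun_prop)).aestronglyMeasurable
  rw [integral_prod _ hi, integral_prod _ (meas_bdd_int hg hb hC hA)]
  have hin : ∀ x0 : ℝ, ∫ y : ℝ × ℝ, g (y.2, x0) ∂((volume.restrict B).prod (volume.restrict C))
      = (volume B).toReal * ∫ x2 in C, g (x2, x0) := by
    intro x0
    have hi2 : Integrable (fun y : ℝ × ℝ => g (y.2, x0))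
        ((volume.restrict B).prod (volume.restrict C)) := by
      refine Integrable.of_bound ?_ b
        (Filter.Eventually.of_forall (fun p => by simpa [Real.norm_eq_abs] using hb _))
      exact (hg.comp (by fun_prop)).aestronglyMeasurable
    rw [integral_prod _ hi2]
    simp only [integral_const, smul_eq_mul, Measure.real,
      Measure.restrict_apply MeasurableSet.univ, univ_inter]
  simp only [hin]
  rw [integral_const_mul]
  congr 1
  exact integral_integral_swap (f := fun x0 x2 => g (x2, x0))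
    (by
      have := meas_bdd_int (g := fun p : ℝ × ℝ => g (p.2, p.1)) (b := b)
        (hg.comp (by fun_prop)) (fun p => hb _) hA hC
      exact this)

end Fubini

end Vale.Agent.Lib.P075.Cont
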