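import Vale.Agent.Lib.P075.OneLevel

/-!
# The tree recursion for the dyadic triangular form

From the one level inequality to the discrete main theorem.
-/

set_option linter.unusedSectionVars false

open Matrix

namespace Vale.Agent.Lib.P075

/-- The index set `Bool^n` of the cells of `[0,2^n)`. -/
def X : ℕ → Type
  | 0 => Unit
  | n + 1 => Bool × X n

instance instFintypeX : ∀ n, Fintype (X n)
  | 0 => inferInstanceAs (Fintype Unit)
  | n + 1 => by
      haveI := instFintypeX n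
      exact inferInstanceAs (Fintype (Bool × X n))

instance instDecEqX : ∀ n, DecidableEq (X n)
  | 0 => inferInstanceAs (DecidableEq Unit)
  | n + 1 => by
      haveI := instDecEqX n
      exact inferInstanceAs (DecidableEq (Bool × X n))

example (n : ℕ) : instFintypeX (n + 1) = (instFintypeProd Bool (X n)) := rfl

/-- The matrices of level `n`. -/
abbrev MX (n : ℕ) := Matrix (X n) (X n) ℝ

/-- A matrix of level `n+1` as a matrix indexed by `Bool × X n`. -/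
abbrev up {n : ℕ} (A : MX (n + 1)) : Matrix (Bool × X n) (Bool × X n) ℝ := A

/-- The blocks of a matrix of level `n+1`. -/
def bk {n : ℕ} (A : MX (n + 1)) (a b : Bool) : MX n := blk (up A) a b

/-- The top term. -/
noncomputable def top {n : ℕ} (A B C : MX (n + 1)) : ℝ :=
  (Sg (X n) * up A * Sg (X n) * up B * Sg (X n) * up C).trace

/-- The total of the tree. -/
noncomputable def TT : (n : ℕ) → MX n → MX n → MX n → ℝ
  | 0, _, _, _ => 0
  | n + 1, A, B, C =>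
      |((2 : ℝ) ^ (n + 1))⁻¹ * top A B C|
        + ∑ a : Bool, ∑ b : Bool, TT n (bk A a b) (bk B b (xor a b)) (bk C (xor a b) a)

/-- The bottom value of the potential. -/
noncomputable def BB : (n : ℕ) → MX n → MX n → MX n → ℝ
  | 0, A, B, C => Psi A B C
  | n + 1, A, B, C =>
      ∑ a : Bool, ∑ b : Bool, BB n (bk A a b) (bk B b (xor a b)) (bk C (xor a b) a)

theorem TT_le_BB (n : ℕ) (A B C : MX n) :
    TT n A B C ≤ (3/4) * (BB n A B C - ((2 : ℝ) ^ n)⁻¹ * Psi A B C) := by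
  induction n with
  | zero => simp [TT, BB]
  | succ n ih =>
    have h1 : |top A B C| ≤ (3/4) * (2 * ∑ a : Bool, ∑ b : Bool,
        Psi (bk A a b) (bk B b (xor a b)) (bk C (xor a b) a) - Psi A B C) :=
      one_level (κ := X n) (up A) (up B) (up C)
    have hp : (0 : ℝ) < ((2 : ℝ) ^ (n + 1))⁻¹ := by positivity
    have h3 : ∑ a : Bool, ∑ b : Bool, TT n (bk A a b) (bk B b (xor a b)) (bk C (xor a b) a)
        ≤ ∑ a : Bool, ∑ b : Bool, (3/4) * (BB n (bk A a b) (bk B b (xor a b)) (bk C (xor a b) a)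
          - ((2 : ℝ) ^ n)⁻¹ * Psi (bk A a b) (bk B b (xor a b)) (bk C (xor a b) a)) :=
      Finset.sum_le_sum fun a _ => Finset.sum_le_sum fun b _ => ih _ _ _
    have e : ((2 : ℝ) ^ (n + 1))⁻¹ * 2 = ((2 : ℝ) ^ n)⁻¹ := by
      rw [pow_succ]; field_simp
    have e3 : ∑ a : Bool, ∑ b : Bool, (3/4) * (BB n (bk A a b) (bk B b (xor a b)) (bk C (xor a b) a)
          - ((2 : ℝ) ^ n)⁻¹ * Psi (bk A a b) (bk B b (xor a b)) (bk C (xor a b) a))
        = (3/4) * (BB (n + 1) A B C - ((2 : ℝ) ^ n)⁻¹ * ∑ a : Bool, ∑ b : Bool,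
            Psi (bk A a b) (bk B b (xor a b)) (bk C (xor a b) a)) := by
      simp only [BB, Fintype.sum_bool]
      ring
    rw [e3] at h3
    set P := ∑ a : Bool, ∑ b : Bool, Psi (bk A a b) (bk B b (xor a b)) (bk C (xor a b) a) with hP
    have h2 : |((2 : ℝ) ^ (n + 1))⁻¹ * top A B C|
        ≤ ((2 : ℝ) ^ (n + 1))⁻¹ * ((3/4) * (2 * P - Psi A B C)) := by
      rw [abs_mul, abs_of_pos hp]
      exact mul_le_mul_of_nonneg_left h1 hp.le
    have e4 : ((2 : ℝ) ^ (n + 1))⁻¹ * ((3/4) * (2 * P - Psi A B C))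
        = (3/4) * (((2 : ℝ) ^ n)⁻¹ * P) - (3/4) * (((2 : ℝ) ^ (n + 1))⁻¹ * Psi A B C) := by
      rw [← e]; ring
    rw [e4] at h2
    have h5 : TT (n + 1) A B C = |((2 : ℝ) ^ (n + 1))⁻¹ * top A B C|
        + ∑ a : Bool, ∑ b : Bool, TT n (bk A a b) (bk B b (xor a b)) (bk C (xor a b) a) := rfl
    rw [h5]
    linarith

/-- The cube of the `ℓ³` norm of a matrix. -/
noncomputable def nn {n : ℕ} (A : MX n) : ℝ := ∑ x, ∑ y, |A x y| ^ 3

lemma nn_nonneg {n : ℕ} (A : MX n) : 0 ≤ nn A :=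
  Finset.sum_nonneg fun _ _ => Finset.sum_nonneg fun _ _ => by positivity

lemma nn_succ {n : ℕ} (A : MX (n + 1)) : nn A = ∑ a : Bool, ∑ b : Bool, nn (bk A a b) := by
  unfold nn bk blk up
  have e : ∀ g : X (n + 1) → ℝ, ∑ x, g x = ∑ a : Bool, ∑ x : X n, g (a, x) := by
    intro g
    exact Fintype.sum_prod_type (f := fun p : Bool × X n => g p)
  rw [e]
  apply Finset.sum_congr rfl
  intro a _
  simp only [e]
  rw [Finset.sum_comm]

lemma P3_nonneg' {r c : Type*} [Fintype r] [DecidableEq r] [Fintype c] [DecidableEq c]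
    (X' : Matrix r c ℝ) : 0 ≤ P3 X' := pot_nonneg (psd_transpose_mul X')

lemma Psi_nonneg {κ : Type*} [Fintype κ] [DecidableEq κ] (A B C : Matrix κ κ ℝ) :
    0 ≤ Psi A B C := by
  unfold Psi
  have := P3_nonneg' (fromCols A Cᵀ)
  have := P3_nonneg' (fromCols B Aᵀ)
  have := P3_nonneg' (fromCols C Bᵀ)
  linarith

lemma Psi_unit_aux (A B C : Matrix Unit Unit ℝ) :
    Psi A B C ≤ 2 * √2 * (|A () ()| ^ 3 + |B () ()| ^ 3 + |C () ()| ^ 3) := by
  have h1 := P3_fromCols_le A C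
  have h2 := P3_fromCols_le B A
  have h3 := P3_fromCols_le C B
  rw [P3_unit, P3_unit] at h1 h2 h3
  unfold Psi
  linarith

lemma nn_zero (A : MX 0) : nn A = |(A : Matrix Unit Unit ℝ) () ()| ^ 3 := by
  unfold nn
  show ∑ x : Unit, ∑ y : Unit, |(A : Matrix Unit Unit ℝ) x y| ^ 3 = _
  simp

lemma Psi_unit (A B C : MX 0) : Psi A B C ≤ 2 * √2 * (nn A + nn B + nn C) := by
  rw [nn_zero, nn_zero, nn_zero]
  exact Psi_unit_aux A B C

theorem BB_le (n : ℕ) (A B C : MX n) : BB n A B C ≤ 2 * √2 * (nn A + nn B + nn C) := by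
  induction n with
  | zero => exact Psi_unit A B C
  | succ n ih =>
    have h : BB (n + 1) A B C ≤ ∑ a : Bool, ∑ b : Bool, 2 * √2 *
        (nn (bk A a b) + nn (bk B b (xor a b)) + nn (bk C (xor a b) a)) :=
      Finset.sum_le_sum fun a _ => Finset.sum_le_sum fun b _ => ih _ _ _
    refine le_trans h (le_of_eq ?_)
    rw [nn_succ A, nn_succ B, nn_succ C]
    simp only [Fintype.sum_bool, Bool.xor_true, Bool.xor_false, Bool.not_true, Bool.not_false]
    ring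

/-! ### Homogeneity -/

lemma bk_smul {n : ℕ} (c : ℝ) (A : MX (n + 1)) (a b : Bool) : bk (c • A) a b = c • bk A a b := by
  ext x y
  rfl

lemma trace_smul_aux {κ : Type*} [Fintype κ] [DecidableEq κ] (c0 c1 c2 : ℝ)
    (A B C : Matrix (Bool × κ) (Bool × κ) ℝ) :
    (Sg κ * (c0 • A) * Sg κ * (c1 • B) * Sg κ * (c2 • C)).trace
      = c0 * c1 * c2 * (Sg κ * A * Sg κ * B * Sg κ * C).trace := by
  simp only [Matrix.mul_smul, Matrix.smul_mul, Matrix.trace_smul, smul_eq_mul]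
  ring

lemma top_smul {n : ℕ} (c0 c1 c2 : ℝ) (A B C : MX (n + 1)) :
    top (c0 • A) (c1 • B) (c2 • C) = c0 * c1 * c2 * top A B C :=
  trace_smul_aux (κ := X n) c0 c1 c2 A B C

theorem TT_smul (n : ℕ) (c0 c1 c2 : ℝ) (h0 : 0 ≤ c0) (h1 : 0 ≤ c1) (h2 : 0 ≤ c2)
    (A B C : MX n) : TT n (c0 • A) (c1 • B) (c2 • C) = c0 * c1 * c2 * TT n A B C := by
  induction n with
  | zero => simp [TT]
  | succ n ih =>
    have e1 : TT (n + 1) (c0 • A) (c1 • B) (c2 • C)
        = |((2 : ℝ) ^ (n + 1))⁻¹ * top (c0 • A) (c1 • B) (c2 • C)|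
        + ∑ a : Bool, ∑ b : Bool,
            TT n (bk (c0 • A) a b) (bk (c1 • B) b (xor a b)) (bk (c2 • C) (xor a b) a) := rfl
    have e2 : TT (n + 1) A B C = |((2 : ℝ) ^ (n + 1))⁻¹ * top A B C|
        + ∑ a : Bool, ∑ b : Bool, TT n (bk A a b) (bk B b (xor a b)) (bk C (xor a b) a) := rfl
    rw [e1, e2, top_smul]
    simp only [bk_smul, ih]
    have hc : 0 ≤ c0 * c1 * c2 := by positivity
    have e3 : |((2 : ℝ) ^ (n + 1))⁻¹ * (c0 * c1 * c2 * top A B C)|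
        = c0 * c1 * c2 * |((2 : ℝ) ^ (n + 1))⁻¹ * top A B C| := by
      rw [show ((2 : ℝ) ^ (n + 1))⁻¹ * (c0 * c1 * c2 * top A B C)
        = (c0 * c1 * c2) * (((2 : ℝ) ^ (n + 1))⁻¹ * top A B C) by ring, abs_mul, abs_of_nonneg hc]
    rw [e3]
    simp only [Fintype.sum_bool]
    ring

lemma nn_smul {n : ℕ} (c : ℝ) (hc : 0 ≤ c) (A : MX n) : nn (c • A) = c ^ 3 * nn A := by
  unfold nn
  simp only [Finset.mul_sum]
  refine Finset.sum_congr rfl fun x _ => Finset.sum_congr rfl fun y _ => ?_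
  show |c * A x y| ^ 3 = _
  rw [abs_mul, abs_of_nonneg hc]
  ring

theorem TT_le (n : ℕ) (A B C : MX n) :
    TT n A B C ≤ (3 / 2 * √2) * (nn A + nn B + nn C) := by
  have h1 := TT_le_BB n A B C
  have h2 := BB_le n A B C
  have h3 := Psi_nonneg A B C
  have h4 : 0 ≤ ((2 : ℝ) ^ n)⁻¹ * Psi A B C := by positivity
  nlinarith

lemma eq_zero_of_nn {n : ℕ} (A : MX n) (h : nn A = 0) : A = (0 : ℝ) • A := by
  rw [zero_smul]
  ext x y
  unfold nn at h
  rw [Finset.sum_eq_zero_iff_of_nonneg (fun _ _ => Finset.sum_nonneg fun _ _ => by positivity)] at h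
  have h1 := h x (Finset.mem_univ _)
  rw [Finset.sum_eq_zero_iff_of_nonneg (fun _ _ => by positivity)] at h1
  have h2 := h1 y (Finset.mem_univ _)
  simpa using h2

lemma cbrt_spec {a : ℝ} (ha : 0 ≤ a) : (a ^ (1 / 3 : ℝ)) ^ 3 = a := by
  rw [← Real.rpow_natCast, ← Real.rpow_mul ha]
  norm_num

theorem TT_holder (n : ℕ) (A B C : MX n) :
    TT n A B C ≤ (9 * √2 / 2) * ((nn A) ^ (1 / 3 : ℝ) * (nn B) ^ (1 / 3 : ℝ) * (nn C) ^ (1 / 3 : ℝ)) := by
  have hA := nn_nonneg A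
  have hB := nn_nonneg B
  have hC := nn_nonneg C
  have h13 : (1 / 3 : ℝ) ≠ 0 := by norm_num
  by_cases h0 : nn A = 0
  · have e : TT n A B C = 0 := by
      have := TT_smul n 0 1 1 le_rfl zero_le_one zero_le_one A B C
      rw [← eq_zero_of_nn A h0, one_smul, one_smul] at this
      simpa using this
    rw [e, h0, Real.zero_rpow h13]
    simp
  by_cases h1 : nn B = 0
  · have e : TT n A B C = 0 := by
      have := TT_smul n 1 0 1 zero_le_one le_rfl zero_le_one A B C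
      rw [← eq_zero_of_nn B h1, one_smul, one_smul] at this
      simpa using this
    rw [e, h1, Real.zero_rpow h13]
    simp
  by_cases h2 : nn C = 0
  · have e : TT n A B C = 0 := by
      have := TT_smul n 1 1 0 zero_le_one zero_le_one le_rfl A B C
      rw [← eq_zero_of_nn C h2, one_smul, one_smul] at this
      simpa using this
    rw [e, h2, Real.zero_rpow h13]
    simp
  have pA : 0 < nn A := lt_of_le_of_ne hA (Ne.symm h0)
  have pB : 0 < nn B := lt_of_le_of_ne hB (Ne.symm h1)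
  have pC : 0 < nn C := lt_of_le_of_ne hC (Ne.symm h2)
  set p := (nn A) ^ (1 / 3 : ℝ) with hp
  set q := (nn B) ^ (1 / 3 : ℝ) with hq
  set r := (nn C) ^ (1 / 3 : ℝ) with hr
  have p3 : p ^ 3 = nn A := cbrt_spec hA
  have q3 : q ^ 3 = nn B := cbrt_spec hB
  have r3 : r ^ 3 = nn C := cbrt_spec hC
  have pp : 0 < p := Real.rpow_pos_of_pos pA _
  have qp : 0 < q := Real.rpow_pos_of_pos pB _
  have rp : 0 < r := Real.rpow_pos_of_pos pC _
  have h := TT_le n (p⁻¹ • A) (q⁻¹ • B) (r⁻¹ • C)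
  rw [TT_smul n _ _ _ (inv_nonneg.2 pp.le) (inv_nonneg.2 qp.le) (inv_nonneg.2 rp.le),
    nn_smul _ (inv_nonneg.2 pp.le), nn_smul _ (inv_nonneg.2 qp.le), nn_smul _ (inv_nonneg.2 rp.le),
    ← p3, ← q3, ← r3] at h
  have e1 : (p⁻¹) ^ 3 * p ^ 3 = 1 := by field_simp
  have e2 : (q⁻¹) ^ 3 * q ^ 3 = 1 := by field_simp
  have e3 : (r⁻¹) ^ 3 * r ^ 3 = 1 := by field_simp
  rw [e1, e2, e3] at h
  have hpqr : 0 < p * q * r := by positivity
  have e4 : TT n A B C = (p * q * r) * (p⁻¹ * q⁻¹ * r⁻¹ * TT n A B C) := by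
    field_simp
  rw [e4]
  calc (p * q * r) * (p⁻¹ * q⁻¹ * r⁻¹ * TT n A B C)
      ≤ (p * q * r) * ((3 / 2 * √2) * (1 + 1 + 1)) := mul_le_mul_of_nonneg_left h hpqr.le
    _ = (9 * √2 / 2) * (p * q * r) := by ring

/-! ### Natural number indices -/

/-- The value of a bit. -/
def bv (a : Bool) : ℕ := if a then 1 else 0

lemma bv_le (a : Bool) : bv a ≤ 1 := by cases a <;> simp [bv]

/-- The natural number coded by a point of `X n`. -/
def toNat : (n : ℕ) → X n → ℕ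
  | 0, _ => 0
  | n + 1, x => bv (show Bool × X n from x).1 * 2 ^ n + toNat n (show Bool × X n from x).2

lemma toNat_succ (n : ℕ) (a : Bool) (x : X n) :
    toNat (n + 1) (show Bool × X n from (a, x)) = bv a * 2 ^ n + toNat n x := rfl

lemma toNat_lt : ∀ (n : ℕ) (x : X n), toNat n x < 2 ^ n
  | 0, _ => by simp [toNat]
  | n + 1, x => by
      have h := toNat_lt n (show Bool × X n from x).2
      have h1 := bv_le (show Bool × X n from x).1
      show bv (show Bool × X n from x).1 * 2 ^ n + toNat n (show Bool × X n from x).2 < 2 ^ (n + 1)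
      rw [pow_succ]
      nlinarith [Nat.pos_of_ne_zero (pow_ne_zero n (two_ne_zero : (2 : ℕ) ≠ 0))]

lemma sum_X_succ (n : ℕ) (g : X (n + 1) → ℝ) :
    ∑ x, g x = ∑ a : Bool, ∑ x : X n, g (show Bool × X n from (a, x)) :=
  Fintype.sum_prod_type (f := fun p : Bool × X n => g p)

lemma sum_range_two_pow_succ (m : ℕ) (g : ℕ → ℝ) :
    ∑ j ∈ Finset.range (2 ^ (m + 1)), g j
      = ∑ a : Bool, ∑ j ∈ Finset.range (2 ^ m), g (bv a * 2 ^ m + j) := by
  rw [pow_succ, mul_two, Finset.sum_range_add]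
  simp only [Fintype.sum_bool, bv]
  simp [add_comm]

theorem sum_toNat (n : ℕ) (g : ℕ → ℝ) :
    ∑ x : X n, g (toNat n x) = ∑ j ∈ Finset.range (2 ^ n), g j := by
  induction n generalizing g with
  | zero =>
    show ∑ x : Unit, g (toNat 0 x) = _
    simp [toNat]
  | succ n ih =>
    rw [sum_X_succ, sum_range_two_pow_succ]
    refine Finset.sum_congr rfl fun a _ => ?_
    exact ih (fun j => g (bv a * 2 ^ n + j))

/-- The matrix of a function on `ℕ × ℕ`. -/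
def mat (n : ℕ) (f : ℕ → ℕ → ℝ) : MX n := fun x y => f (toNat n x) (toNat n y)

lemma nn_mat (n : ℕ) (f : ℕ → ℕ → ℝ) : nn (mat n f) = cube3 n f := by
  unfold nn cube3 mat
  rw [← sum_toNat n (fun x => ∑ y ∈ Finset.range (2 ^ n), |f x y| ^ 3)]
  refine Finset.sum_congr rfl fun x _ => ?_
  exact sum_toNat n (fun y => |f (toNat n x) y| ^ 3)

/-- The shift of a function to a quadrant. -/
def shift (n : ℕ) (f : ℕ → ℕ → ℝ) (a b : Bool) : ℕ → ℕ → ℝ :=
  fun x y => f (bv a * 2 ^ n + x) (bv b * 2 ^ n + y)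

lemma bk_mat (n : ℕ) (f : ℕ → ℕ → ℝ) (a b : Bool) :
    bk (mat (n + 1) f) a b = mat n (shift n f a b) := by
  ext x y
  rfl

lemma hs_toNat (n : ℕ) (a : Bool) (x : X n) : hs (n + 1) (bv a * 2 ^ n + toNat n x) = sg a := by
  have h := toNat_lt n x
  cases a
  · simp [hs, bv, sg, h]
  · simp [hs, bv, sg]

lemma hs_toNat' (n : ℕ) (x : Bool × X n) : hs (n + 1) (toNat (n + 1) x) = sg x.1 := by
  obtain ⟨a, x'⟩ := x
  exact hs_toNat n a x'

lemma trace_expand_sg {κ : Type*} [Fintype κ] [DecidableEq κ]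
    (A B C : Matrix (Bool × κ) (Bool × κ) ℝ) :
    (Sg κ * A * Sg κ * B * Sg κ * C).trace = ∑ x0, ∑ x1, ∑ x2,
      A x0 x1 * B x1 x2 * C x2 x0 * (sg x0.1 * sg x1.1 * sg x2.1) := by
  have e : ∀ x0 x2, (Sg κ * A * Sg κ * B * Sg κ) x0 x2
      = ∑ x1, A x0 x1 * B x1 x2 * (sg x0.1 * sg x1.1 * sg x2.1) := by
    intro x0 x2
    unfold Sg
    rw [Matrix.mul_diagonal, Matrix.mul_apply, Finset.sum_mul]
    refine Finset.sum_congr rfl fun x1 _ => ?_
    rw [Matrix.mul_diagonal, Matrix.diagonal_mul]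
    ring
  unfold Matrix.trace
  simp only [Matrix.diag_apply]
  refine Finset.sum_congr rfl fun x0 _ => ?_
  rw [Matrix.mul_apply]
  simp only [e, Finset.sum_mul]
  rw [Finset.sum_comm]
  refine Finset.sum_congr rfl fun x1 _ => Finset.sum_congr rfl fun x2 _ => ?_
  ring

lemma top_mat (n : ℕ) (F0 F1 F2 : ℕ → ℕ → ℝ) :
    ((2 : ℝ) ^ (n + 1))⁻¹ * top (mat (n + 1) F0) (mat (n + 1) F1) (mat (n + 1) F2)
      = LD F0 F1 F2 (n + 1) 0 0 0 := by
  have e := trace_expand_sg (κ := X n) (mat (n + 1) F0) (mat (n + 1) F1) (mat (n + 1) F2)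
  have e' : top (mat (n + 1) F0) (mat (n + 1) F1) (mat (n + 1) F2) = _ := e
  rw [e']
  unfold LD
  congr 1
  simp only [zero_mul, zero_add]
  rw [← sum_toNat (n + 1) (fun x0 => ∑ x1 ∈ Finset.range (2 ^ (n + 1)),
    ∑ x2 ∈ Finset.range (2 ^ (n + 1)), F0 x0 x1 * F1 x1 x2 * F2 x2 x0 *
      (hs (n + 1) x0 * hs (n + 1) x1 * hs (n + 1) x2))]
  refine Finset.sum_congr rfl fun x0 _ => ?_
  rw [← sum_toNat (n + 1) (fun x1 => ∑ x2 ∈ Finset.range (2 ^ (n + 1)),
    F0 (toNat (n + 1) x0) x1 * F1 x1 x2 * F2 x2 (toNat (n + 1) x0) *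
      (hs (n + 1) (toNat (n + 1) x0) * hs (n + 1) x1 * hs (n + 1) x2))]
  refine Finset.sum_congr rfl fun x1 _ => ?_
  rw [← sum_toNat (n + 1) (fun x2 =>
    F0 (toNat (n + 1) x0) (toNat (n + 1) x1) * F1 (toNat (n + 1) x1) x2 * F2 x2 (toNat (n + 1) x0) *
      (hs (n + 1) (toNat (n + 1) x0) * hs (n + 1) (toNat (n + 1) x1) * hs (n + 1) x2))]
  refine Finset.sum_congr rfl fun x2 _ => ?_
  rw [hs_toNat' n x0, hs_toNat' n x1, hs_toNat' n x2]
  rfl

/-- The sum of the forms over the levels at most `n`. -/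
noncomputable def SS (n : ℕ) (F0 F1 F2 : ℕ → ℕ → ℝ) : ℝ :=
  ∑ k ∈ Finset.Icc 1 n, ∑ i0 ∈ Finset.range (2 ^ (n - k)), ∑ i1 ∈ Finset.range (2 ^ (n - k)),
    |LD F0 F1 F2 k i0 i1 (i0 ^^^ i1)|

lemma xor_bits (m : ℕ) (a b : Bool) (x y : ℕ) (hx : x < 2 ^ m) (hy : y < 2 ^ m) :
    (bv a * 2 ^ m + x) ^^^ (bv b * 2 ^ m + y) = bv (xor a b) * 2 ^ m + (x ^^^ y) := by
  have hxy : x ^^^ y < 2 ^ m := Nat.xor_lt_two_pow hx hy
  rw [mul_comm _ (2 ^ m), mul_comm _ (2 ^ m), mul_comm _ (2 ^ m)]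
  apply Nat.eq_of_testBit_eq
  intro i
  rw [Nat.testBit_xor, Nat.testBit_two_pow_mul_add _ hx, Nat.testBit_two_pow_mul_add _ hy,
    Nat.testBit_two_pow_mul_add _ hxy, Nat.testBit_xor]
  by_cases hi : i < m
  · simp [hi]
  · simp only [hi, if_false]
    cases a <;> cases b <;> simp [bv]

lemma LD_shift (n k m : ℕ) (hm : n = m + k) (F0 F1 F2 : ℕ → ℕ → ℝ) (a b c : Bool) (i0 i1 i2 : ℕ) :
    LD F0 F1 F2 k (bv a * 2 ^ m + i0) (bv b * 2 ^ m + i1) (bv c * 2 ^ m + i2)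
      = LD (shift n F0 a b) (shift n F1 b c) (shift n F2 c a) k i0 i1 i2 := by
  have e : ∀ (d : Bool) (i x : ℕ), (bv d * 2 ^ m + i) * 2 ^ k + x = bv d * 2 ^ n + (i * 2 ^ k + x) := by
    intro d i x
    rw [hm, pow_add]
    ring
  unfold LD shift
  simp only [e]

theorem SS_succ (n : ℕ) (F0 F1 F2 : ℕ → ℕ → ℝ) :
    SS (n + 1) F0 F1 F2 = |LD F0 F1 F2 (n + 1) 0 0 0| + ∑ a : Bool, ∑ b : Bool,
      SS n (shift n F0 a b) (shift n F1 b (xor a b)) (shift n F2 (xor a b) a) := by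
  unfold SS
  rw [Finset.sum_Icc_succ_top (by omega)]
  have h1 : ∑ i0 ∈ Finset.range (2 ^ (n + 1 - (n + 1))), ∑ i1 ∈ Finset.range (2 ^ (n + 1 - (n + 1))),
      |LD F0 F1 F2 (n + 1) i0 i1 (i0 ^^^ i1)| = |LD F0 F1 F2 (n + 1) 0 0 0| := by
    simp
  rw [h1, add_comm]
  congr 1
  have h2 : ∀ k ∈ Finset.Icc 1 n, ∑ i0 ∈ Finset.range (2 ^ (n + 1 - k)),
      ∑ i1 ∈ Finset.range (2 ^ (n + 1 - k)), |LD F0 F1 F2 k i0 i1 (i0 ^^^ i1)|
      = ∑ a : Bool, ∑ b : Bool, ∑ i0 ∈ Finset.range (2 ^ (n - k)),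
          ∑ i1 ∈ Finset.range (2 ^ (n - k)),
            |LD (shift n F0 a b) (shift n F1 b (xor a b)) (shift n F2 (xor a b) a) k i0 i1
              (i0 ^^^ i1)| := by
    intro k hk
    rw [Finset.mem_Icc] at hk
    obtain ⟨m, hm⟩ : ∃ m, n = m + k := ⟨n - k, by omega⟩
    have e1 : n + 1 - k = m + 1 := by omega
    have e2 : n - k = m := by omega
    rw [e1, e2, sum_range_two_pow_succ]
    refine Finset.sum_congr rfl fun a _ => ?_
    have e3 : ∀ i0 ∈ Finset.range (2 ^ m), ∑ i1 ∈ Finset.range (2 ^ (m + 1)),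
        |LD F0 F1 F2 k (bv a * 2 ^ m + i0) i1 ((bv a * 2 ^ m + i0) ^^^ i1)|
        = ∑ b : Bool, ∑ i1 ∈ Finset.range (2 ^ m),
          |LD (shift n F0 a b) (shift n F1 b (xor a b)) (shift n F2 (xor a b) a) k i0 i1
              (i0 ^^^ i1)| := by
      intro i0 hi0
      rw [sum_range_two_pow_succ]
      refine Finset.sum_congr rfl fun b _ => Finset.sum_congr rfl fun i1 hi1 => ?_
      rw [xor_bits m a b i0 i1 (Finset.mem_range.1 hi0) (Finset.mem_range.1 hi1),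
        LD_shift n k m hm]
    rw [Finset.sum_congr rfl e3, Finset.sum_comm]
  rw [Finset.sum_congr rfl h2]
  simp only [Fintype.sum_bool, Finset.sum_add_distrib]

theorem TT_mat (n : ℕ) (F0 F1 F2 : ℕ → ℕ → ℝ) :
    TT n (mat n F0) (mat n F1) (mat n F2) = SS n F0 F1 F2 := by
  induction n generalizing F0 F1 F2 with
  | zero => simp [TT, SS]
  | succ n ih =>
    rw [SS_succ]
    have e : TT (n + 1) (mat (n + 1) F0) (mat (n + 1) F1) (mat (n + 1) F2)
        = |((2 : ℝ) ^ (n + 1))⁻¹ * top (mat (n + 1) F0) (mat (n + 1) F1) (mat (n + 1) F2)|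
        + ∑ a : Bool, ∑ b : Bool, TT n (bk (mat (n + 1) F0) a b) (bk (mat (n + 1) F1) b (xor a b))
            (bk (mat (n + 1) F2) (xor a b) a) := rfl
    rw [e, top_mat]
    simp only [bk_mat, ih]

/-- The discrete main theorem. -/
theorem discrete_main (n : ℕ) (F0 F1 F2 : ℕ → ℕ → ℝ) :
    ∑ k ∈ Finset.Icc 1 n, ∑ i0 ∈ Finset.range (2 ^ (n - k)), ∑ i1 ∈ Finset.range (2 ^ (n - k)),
        |LD F0 F1 F2 k i0 i1 (i0 ^^^ i1)|
      ≤ (9 * √2 / 2) * ((cube3 n F0) ^ (1/3:ℝ) * (cube3 n F1) ^ (1/3:ℝ) * (cube3 n F2) ^ (1/3:ℝ)) := by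
  have h := TT_holder n (mat n F0) (mat n F1) (mat n F2)
  rw [TT_mat, nn_mat, nn_mat, nn_mat] at h
  exact h

end Vale.Agent.Lib.P075
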