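import Vale.Agent.Lib.P075.ContStep
import Vale.Agent.Lib.P075.Tree

/-!
# The discrete theorem in the form used by the measure layer
-/

namespace Vale.Agent.Lib.P075.Cont

open Finset

lemma sum_blk (K a : ℕ) (g : ℕ → ℝ) :
    ∑ j ∈ blk K a, g j = ∑ x ∈ range (2 ^ (K + 1)), g (a * 2 ^ (K + 1) + x) := by
  unfold blk
  rw [Finset.sum_Ico_eq_sum_range]
  have e : 2 ^ (K + 1) * (a + 1) - 2 ^ (K + 1) * a = 2 ^ (K + 1) := by
    rw [mul_add, mul_one, Nat.add_sub_cancel_left]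
  rw [e]
  refine Finset.sum_congr rfl fun x _ => ?_
  rw [mul_comm]

lemma sg_eq_hs (K a x : ℕ) : sg K a (a * 2 ^ (K + 1) + x) = Vale.Agent.Lib.P075.hs (K + 1) x := by
  unfold sg Vale.Agent.Lib.P075.hs
  have e : (K + 1 - 1) = K := by omega
  rw [e, mul_comm a]
  by_cases h : x < 2 ^ K
  · rw [if_pos h, if_pos (by omega)]
  · rw [if_neg h, if_neg (by omega)]

lemma discL_eq_LD (K a b c : ℕ) (f0 f1 f2 : ℕ → ℕ → ℝ) :
    discL K a b c f0 f1 f2 = Vale.Agent.Lib.P075.LD f0 f1 f2 (K + 1) a b c := by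
  unfold discL Vale.Agent.Lib.P075.LD
  congr 1
  rw [sum_blk]
  refine Finset.sum_congr rfl fun x0 _ => ?_
  rw [sum_blk]
  refine Finset.sum_congr rfl fun x1 _ => ?_
  rw [sum_blk]
  refine Finset.sum_congr rfl fun x2 _ => ?_
  rw [sg_eq_hs, sg_eq_hs, sg_eq_hs]

theorem DT_holds : DT (9 * √2 / 2) := by
  intro n f0 f1 f2
  have h := Vale.Agent.Lib.P075.discrete_main n f0 f1 f2
  have e : ∑ k ∈ Finset.Icc 1 n, ∑ i0 ∈ Finset.range (2 ^ (n - k)),
      ∑ i1 ∈ Finset.range (2 ^ (n - k)),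
        |Vale.Agent.Lib.P075.LD f0 f1 f2 k i0 i1 (i0 ^^^ i1)|
      = ∑ K ∈ Finset.range n, ∑ a ∈ Finset.range (2 ^ (n - (K + 1))),
        ∑ b ∈ Finset.range (2 ^ (n - (K + 1))), |discL K a b (a ^^^ b) f0 f1 f2| := by
    have hI : Finset.Icc 1 n = Finset.Ico (0 + 1) (n + 1) := by
      ext x
      simp only [Finset.mem_Icc, Finset.mem_Ico]
      omega
    rw [hI, ← Finset.sum_Ico_add' (fun k => ∑ i0 ∈ Finset.range (2 ^ (n - k)),
      ∑ i1 ∈ Finset.range (2 ^ (n - k)),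
        |Vale.Agent.Lib.P075.LD f0 f1 f2 k i0 i1 (i0 ^^^ i1)|) 0 n 1, ← Finset.range_eq_Ico]
    refine Finset.sum_congr rfl fun K _ => Finset.sum_congr rfl fun a _ =>
      Finset.sum_congr rfl fun b _ => ?_
    rw [discL_eq_LD]
  rw [e] at h
  have e3 : ∀ f, ell3 n f = (Vale.Agent.Lib.P075.cube3 n f) ^ ((1 : ℝ) / 3) := fun f => rfl
  rw [e3, e3, e3]
  refine le_trans h (le_of_eq ?_)
  ring

end Vale.Agent.Lib.P075.Cont
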