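import Mathlib

/-!
# The dyadic triangular Hilbert form (problem P075, Q2): definitions

`dI k n` is the dyadic interval `[2^k n, 2^k (n+1))`, `haar k n` its Haar function,
`formL k n0 n1 n2 F0 F1 F2` the form `L_I` of the triple `I = (I_0, I_1, I_2)`,
`Lam S ε F0 F1 F2` the form `Λ^d_{S,ε}` and `l3Norm F` the norm of `L^3([0,∞)^2)`.
-/

open MeasureTheory Set

namespace Vale.Agent.Lib.P075.Cont

/-- The dyadic interval `[2^k n, 2^k (n+1))`. -/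
def dI (k : ℤ) (n : ℕ) : Set ℝ := Ico ((2 : ℝ) ^ k * n) ((2 : ℝ) ^ k * (n + 1))

/-- The left half of `dI k n`. -/
def dL (k : ℤ) (n : ℕ) : Set ℝ := Ico ((2 : ℝ) ^ k * n) ((2 : ℝ) ^ k * (n + 1 / 2))

/-- The right half of `dI k n`. -/
def dR (k : ℤ) (n : ℕ) : Set ℝ := Ico ((2 : ℝ) ^ k * (n + 1 / 2)) ((2 : ℝ) ^ k * (n + 1))

/-- The Haar function `h_I = 1_{I_left} - 1_{I_right}` of `I = dI k n`. -/
noncomputable def haar (k : ℤ) (n : ℕ) (x : ℝ) : ℝ :=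
  (dL k n).indicator (fun _ => (1 : ℝ)) x - (dR k n).indicator (fun _ => (1 : ℝ)) x

/-- The form `L_I(F_0,F_1,F_2)` for `I = (dI k n0, dI k n1, dI k n2)`:
`2^{-k} ∫_{I_0 × I_1 × I_2} F_0(x_0,x_1) F_1(x_1,x_2) F_2(x_2,x_0) h_{I_0}(x_0) h_{I_1}(x_1) h_{I_2}(x_2) dx`. -/
noncomputable def formL (k : ℤ) (n0 n1 n2 : ℕ) (F0 F1 F2 : ℝ → ℝ → ℝ) : ℝ :=
  (2 : ℝ) ^ (-k) * ∫ x : ℝ × ℝ × ℝ in dI k n0 ×ˢ dI k n1 ×ˢ dI k n2,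
    F0 x.1 x.2.1 * F1 x.2.1 x.2.2 * F2 x.2.2 x.1 *
      (haar k n0 x.1 * haar k n1 x.2.1 * haar k n2 x.2.2)

/-- The set `𝒜_k` of triples of level `k` is parametrised by `(n0, n1)`, with `n2 = n0 xor n1`
(since `n0 xor n1 xor n2 = 0` iff `n2 = n0 xor n1`), and
`Λ^d_{S,ε} = ∑_{k ∈ S} ε_k ∑_{I ∈ 𝒜_k} L_I`. -/
noncomputable def Lam (S : Finset ℤ) (ε : ℤ → ℝ) (F0 F1 F2 : ℝ → ℝ → ℝ) : ℝ :=
  ∑ k ∈ S, ε k * ∑' p : ℕ × ℕ, formL k p.1 p.2 (p.1 ^^^ p.2) F0 F1 F2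

/-- The norm of `F` in `L^3([0,∞)^2)`. -/
noncomputable def l3Norm (F : ℝ → ℝ → ℝ) : ℝ :=
  (∫ p : ℝ × ℝ in Ici (0 : ℝ) ×ˢ Ici (0 : ℝ), |F p.1 p.2| ^ (3 : ℕ)) ^ ((1 : ℝ) / 3)

/-- The hypotheses on the inputs: real, bounded, compactly supported, measurable. -/
structure Admissible (F : ℝ → ℝ → ℝ) : Prop where
  meas : Measurable (Function.uncurry F)
  bdd : ∃ M : ℝ, ∀ x y, |F x y| ≤ M
  supp : HasCompactSupport (Function.uncurry F)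

end Vale.Agent.Lib.P075.Cont
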