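import Vale.Agent.Lib.P075.ContCont
import Vale.Agent.Lib.P075.ContDT

/-!
# Lipschitz bounds for the form and the cube integral in `L^1`
-/

open MeasureTheory Set

namespace Vale.Agent.Lib.P075.Cont

/-- The distance in `L^1` of the quadrant. -/
noncomputable def d1 (F G : ℝ → ℝ → ℝ) : ℝ := ∫ p : ℝ × ℝ in Q, |F p.1 p.2 - G p.1 p.2|

lemma volume_dI (k : ℤ) (n : ℕ) : volume (dI k n) = ENNReal.ofReal ((2 : ℝ) ^ k) := by
  simp only [dI, Real.volume_Ico]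
  congr 1
  ring

lemma volume_dI_ne_top (k : ℤ) (n : ℕ) : volume (dI k n) ≠ ⊤ := by
  rw [volume_dI]
  exact ENNReal.ofReal_ne_top

lemma toReal_volume_dI (k : ℤ) (n : ℕ) : (volume (dI k n)).toReal = (2 : ℝ) ^ k := by
  rw [volume_dI, ENNReal.toReal_ofReal (by positivity)]

lemma dI_subset (k : ℤ) (n : ℕ) : dI k n ⊆ Ici 0 := fun x hx => by
  have : (0 : ℝ) ≤ (2 : ℝ) ^ k * n := by positivity
  exact le_trans this hx.1

lemma haar_abs_le (k : ℤ) (n : ℕ) (x : ℝ) : |haar k n x| ≤ 1 := by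
  unfold haar
  have hp : (0 : ℝ) < (2 : ℝ) ^ k := by positivity
  by_cases h1 : x ∈ dL k n
  · have h2 : x ∉ dR k n := by
      intro h
      have h3 := h1.2
      have h4 := h.1
      linarith
    simp [h1, h2]
  · by_cases h2 : x ∈ dR k n <;> simp [h1, h2]

lemma measurable_haar (k : ℤ) (n : ℕ) : Measurable (haar k n) := by
  unfold haar
  exact (measurable_const.indicator measurableSet_Ico).sub
    (measurable_const.indicator measurableSet_Ico)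

lemma product_lip {M a0 a1 a2 b0 b1 b2 : ℝ} (h0 : |a0| ≤ M) (h1 : |a1| ≤ M) (h2 : |a2| ≤ M)
    (h3 : |b0| ≤ M) (h4 : |b1| ≤ M) (_h5 : |b2| ≤ M) :
    |a0 * a1 * a2 - b0 * b1 * b2| ≤ M ^ 2 * (|a0 - b0| + |a1 - b1| + |a2 - b2|) := by
  have hM : 0 ≤ M := le_trans (abs_nonneg _) h0
  have e : a0 * a1 * a2 - b0 * b1 * b2
      = (a0 - b0) * (a1 * a2) + (a1 - b1) * (b0 * a2) + (a2 - b2) * (b0 * b1) := by ring
  have t1 : |(a0 - b0) * (a1 * a2)| ≤ |a0 - b0| * M ^ 2 := by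
    rw [abs_mul, abs_mul]
    apply mul_le_mul_of_nonneg_left _ (abs_nonneg _)
    rw [pow_two]
    exact mul_le_mul h1 h2 (abs_nonneg _) hM
  have t2 : |(a1 - b1) * (b0 * a2)| ≤ |a1 - b1| * M ^ 2 := by
    rw [abs_mul, abs_mul]
    apply mul_le_mul_of_nonneg_left _ (abs_nonneg _)
    rw [pow_two]
    exact mul_le_mul h3 h2 (abs_nonneg _) hM
  have t3 : |(a2 - b2) * (b0 * b1)| ≤ |a2 - b2| * M ^ 2 := by
    rw [abs_mul, abs_mul]
    apply mul_le_mul_of_nonneg_left _ (abs_nonneg _)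
    rw [pow_two]
    exact mul_le_mul h3 h4 (abs_nonneg _) hM
  rw [e]
  calc _ ≤ |(a0 - b0) * (a1 * a2)| + |(a1 - b1) * (b0 * a2)| + |(a2 - b2) * (b0 * b1)| :=
        abs_add_three _ _ _
    _ ≤ _ := by linarith

lemma measurable_diff {F G : ℝ → ℝ → ℝ} (hF : Measurable (Function.uncurry F))
    (hG : Measurable (Function.uncurry G)) :
    Measurable (fun p : ℝ × ℝ => |F p.1 p.2 - G p.1 p.2|) :=
  (hF.sub hG).abs

variable {M R : ℝ} {F0 F1 F2 G0 G1 G2 : ℝ → ℝ → ℝ}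

lemma integrableOn_diff (hF : Good M R F0) (hG : Good M R G0) :
    IntegrableOn (fun p : ℝ × ℝ => |F0 p.1 p.2 - G0 p.1 p.2|) Q := by
  refine integrableOn_Q (measurable_diff hF.meas hG.meas) (B := 2 * M) (R := R) ?_ ?_
  · intro p
    rw [abs_abs]
    have h1 := hF.bdd p.1 p.2
    have h2 := hG.bdd p.1 p.2
    calc _ ≤ |F0 p.1 p.2| + |G0 p.1 p.2| := abs_sub _ _
      _ ≤ _ := by linarith
  · intro p h1 h2 h3
    rw [hF.supp _ _ h1 h2 h3, hG.supp _ _ h1 h2 h3]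
    simp

lemma diff_le_d1 {A B : Set ℝ} (hF : Good M R F0) (hG : Good M R G0)
    (hA : A ⊆ Ici 0) (hB : B ⊆ Ici 0) :
    ∫ p : ℝ × ℝ in A ×ˢ B, |F0 p.1 p.2 - G0 p.1 p.2| ≤ d1 F0 G0 := by
  unfold d1
  refine setIntegral_mono_set (integrableOn_diff hF hG) ?_ ?_
  · exact Filter.Eventually.of_forall (fun p => abs_nonneg _)
  · exact Filter.Eventually.of_forall (Set.prod_mono hA hB)

theorem formL_lip (k : ℤ) (n0 n1 n2 : ℕ) (h0 : Good M R F0) (h1 : Good M R F1) (h2 : Good M R F2)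
    (h3 : Good M R G0) (h4 : Good M R G1) (h5 : Good M R G2) :
    |formL k n0 n1 n2 F0 F1 F2 - formL k n0 n1 n2 G0 G1 G2|
      ≤ M ^ 2 * (d1 F0 G0 + d1 F1 G1 + d1 F2 G2) := by
  have hM : 0 ≤ M := le_trans (abs_nonneg _) (h0.bdd 0 0)
  have hp : (0 : ℝ) < (2 : ℝ) ^ (-k) := by positivity
  set A := dI k n0 with hA
  set B := dI k n1 with hB
  set C := dI k n2 with hC
  have hvA : volume A ≠ ⊤ := volume_dI_ne_top _ _
  have hvB : volume B ≠ ⊤ := volume_dI_ne_top _ _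
  have hvC : volume C ≠ ⊤ := volume_dI_ne_top _ _
  have hbox : volume (A ×ˢ B ×ˢ C) ≠ ⊤ := by
    simp only [Measure.volume_eq_prod, Measure.prod_prod]
    exact ENNReal.mul_ne_top hvA (ENNReal.mul_ne_top hvB hvC)
  -- measurability of the integrands
  have mw : Measurable (fun x : ℝ × ℝ × ℝ =>
      haar k n0 x.1 * haar k n1 x.2.1 * haar k n2 x.2.2) :=
    (((measurable_haar k n0).comp measurable_fst).mul
      ((measurable_haar k n1).comp (measurable_fst.comp measurable_snd))).mul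
      ((measurable_haar k n2).comp (measurable_snd.comp measurable_snd))
  have m01 : Measurable (fun x : ℝ × ℝ × ℝ => (x.1, x.2.1)) := by fun_prop
  have m12 : Measurable (fun x : ℝ × ℝ × ℝ => (x.2.1, x.2.2)) := by fun_prop
  have m20 : Measurable (fun x : ℝ × ℝ × ℝ => (x.2.2, x.1)) := by fun_prop
  have mPhi : ∀ {H0 H1 H2 : ℝ → ℝ → ℝ}, Good M R H0 → Good M R H1 → Good M R H2 →
      Measurable (fun x : ℝ × ℝ × ℝ => H0 x.1 x.2.1 * H1 x.2.1 x.2.2 * H2 x.2.2 x.1 *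
        (haar k n0 x.1 * haar k n1 x.2.1 * haar k n2 x.2.2)) := by
    intro H0 H1 H2 g0 g1 g2
    exact ((g0.meas.comp m01).mul (g1.meas.comp m12)).mul (g2.meas.comp m20) |>.mul mw
  have hw : ∀ x : ℝ × ℝ × ℝ, |haar k n0 x.1 * haar k n1 x.2.1 * haar k n2 x.2.2| ≤ 1 := by
    intro x
    rw [abs_mul, abs_mul]
    have a0 := haar_abs_le k n0 x.1
    have a1 := haar_abs_le k n1 x.2.1
    have a2 := haar_abs_le k n2 x.2.2
    calc _ ≤ (1 : ℝ) * 1 * 1 := by gcongr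
      _ = 1 := by norm_num
  have iPhi : ∀ {H0 H1 H2 : ℝ → ℝ → ℝ}, Good M R H0 → Good M R H1 → Good M R H2 →
      IntegrableOn (fun x : ℝ × ℝ × ℝ => H0 x.1 x.2.1 * H1 x.2.1 x.2.2 * H2 x.2.2 x.1 *
        (haar k n0 x.1 * haar k n1 x.2.1 * haar k n2 x.2.2)) (A ×ˢ B ×ˢ C) := by
    intro H0 H1 H2 g0 g1 g2
    refine Measure.integrableOn_of_bounded (M := M * M * M * 1) hbox
      (mPhi g0 g1 g2).aestronglyMeasurable (Filter.Eventually.of_forall fun x => ?_)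
    rw [Real.norm_eq_abs, abs_mul, abs_mul, abs_mul]
    have b0 := g0.bdd x.1 x.2.1
    have b1 := g1.bdd x.2.1 x.2.2
    have b2 := g2.bdd x.2.2 x.1
    have b3 := hw x
    rw [abs_mul, abs_mul] at b3 ⊢
    gcongr
  -- the dominating function
  have hd : ∀ {H L : ℝ → ℝ → ℝ}, Good M R H → Good M R L →
      ∀ p : ℝ × ℝ, |(fun p : ℝ × ℝ => |H p.1 p.2 - L p.1 p.2|) p| ≤ 2 * M := by
    intro H L g g' p
    simp only [abs_abs]
    have b1 := g.bdd p.1 p.2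
    have b2 := g'.bdd p.1 p.2
    calc _ ≤ |H p.1 p.2| + |L p.1 p.2| := abs_sub _ _
      _ ≤ _ := by linarith
  have i0 := int3_a (g := fun p : ℝ × ℝ => |F0 p.1 p.2 - G0 p.1 p.2|)
    (measurable_diff h0.meas h3.meas) (hd h0 h3) hvA hvB hvC
  have i1 := int3_b (g := fun p : ℝ × ℝ => |F1 p.1 p.2 - G1 p.1 p.2|)
    (measurable_diff h1.meas h4.meas) (hd h1 h4) hvA hvB hvC
  have i2 := int3_c (g := fun p : ℝ × ℝ => |F2 p.1 p.2 - G2 p.1 p.2|)
    (measurable_diff h2.meas h5.meas) (hd h2 h5) hvA hvB hvC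
  simp only at i0 i1 i2
  have iD : ∀ {H L : ℝ → ℝ → ℝ} {φ : ℝ × ℝ × ℝ → ℝ × ℝ}, Measurable φ → Good M R H → Good M R L →
      IntegrableOn (fun x : ℝ × ℝ × ℝ => |H (φ x).1 (φ x).2 - L (φ x).1 (φ x).2|)
        (A ×ˢ B ×ˢ C) := by
    intro H L φ hφ g g'
    refine Measure.integrableOn_of_bounded (M := 2 * M) hbox
      ((measurable_diff g.meas g'.meas).comp hφ).aestronglyMeasurable
      (Filter.Eventually.of_forall fun x => ?_)
    exact hd g g' (φ x)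
  unfold formL
  rw [← mul_sub, abs_mul, abs_of_pos hp, ← integral_sub (iPhi h0 h1 h2) (iPhi h3 h4 h5)]
  have hmain : |∫ x : ℝ × ℝ × ℝ in A ×ˢ B ×ˢ C,
      (F0 x.1 x.2.1 * F1 x.2.1 x.2.2 * F2 x.2.2 x.1 *
        (haar k n0 x.1 * haar k n1 x.2.1 * haar k n2 x.2.2) -
       G0 x.1 x.2.1 * G1 x.2.1 x.2.2 * G2 x.2.2 x.1 *
        (haar k n0 x.1 * haar k n1 x.2.1 * haar k n2 x.2.2))|
      ≤ M ^ 2 * ((2 : ℝ) ^ k * (d1 F0 G0 + d1 F1 G1 + d1 F2 G2)) := by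
    refine le_trans (abs_integral_le_integral_abs) ?_
    have hle : ∫ x : ℝ × ℝ × ℝ in A ×ˢ B ×ˢ C,
        |F0 x.1 x.2.1 * F1 x.2.1 x.2.2 * F2 x.2.2 x.1 *
          (haar k n0 x.1 * haar k n1 x.2.1 * haar k n2 x.2.2) -
         G0 x.1 x.2.1 * G1 x.2.1 x.2.2 * G2 x.2.2 x.1 *
          (haar k n0 x.1 * haar k n1 x.2.1 * haar k n2 x.2.2)|
        ≤ ∫ x : ℝ × ℝ × ℝ in A ×ˢ B ×ˢ C,
          M ^ 2 * (|F0 x.1 x.2.1 - G0 x.1 x.2.1| + |F1 x.2.1 x.2.2 - G1 x.2.1 x.2.2|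
            + |F2 x.2.2 x.1 - G2 x.2.2 x.1|) := by
      refine integral_mono ?_ ?_ ?_
      · exact ((iPhi h0 h1 h2).sub (iPhi h3 h4 h5)).abs
      · refine Integrable.const_mul ?_ _
        exact ((iD m01 h0 h3).add (iD m12 h1 h4)).add (iD m20 h2 h5)
      · intro x
        simp only
        rw [← sub_mul, abs_mul]
        have b := product_lip (h0.bdd x.1 x.2.1) (h1.bdd x.2.1 x.2.2) (h2.bdd x.2.2 x.1)
          (h3.bdd x.1 x.2.1) (h4.bdd x.2.1 x.2.2) (h5.bdd x.2.2 x.1)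
        have c := hw x
        calc _ ≤ (M ^ 2 * (|F0 x.1 x.2.1 - G0 x.1 x.2.1| + |F1 x.2.1 x.2.2 - G1 x.2.1 x.2.2|
              + |F2 x.2.2 x.1 - G2 x.2.2 x.1|)) * 1 :=
              mul_le_mul b c (abs_nonneg _) (le_trans (abs_nonneg _) b)
          _ = _ := mul_one _
    refine le_trans hle ?_
    rw [integral_const_mul, integral_add, integral_add, i0, i1, i2, toReal_volume_dI,
      toReal_volume_dI, toReal_volume_dI]
    · have s0 := diff_le_d1 (A := A) (B := B) h0 h3 (dI_subset _ _) (dI_subset _ _)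
      have s1 := diff_le_d1 (A := B) (B := C) h1 h4 (dI_subset _ _) (dI_subset _ _)
      have s2 := diff_le_d1 (A := C) (B := A) h2 h5 (dI_subset _ _) (dI_subset _ _)
      have pk : (0 : ℝ) < (2 : ℝ) ^ k := by positivity
      apply mul_le_mul_of_nonneg_left _ (by positivity)
      rw [mul_add, mul_add]
      gcongr
    · exact iD m01 h0 h3
    · exact iD m12 h1 h4
    · exact (iD m01 h0 h3).add (iD m12 h1 h4)
    · exact iD m20 h2 h5
  calc _ ≤ (2 : ℝ) ^ (-k) * (M ^ 2 * ((2 : ℝ) ^ k * (d1 F0 G0 + d1 F1 G1 + d1 F2 G2))) :=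
        mul_le_mul_of_nonneg_left hmain hp.le
    _ = M ^ 2 * (((2 : ℝ) ^ (-k) * (2 : ℝ) ^ k) * (d1 F0 G0 + d1 F1 G1 + d1 F2 G2)) := by ring
    _ = _ := by
      rw [← zpow_add₀ (two_ne_zero), neg_add_cancel, zpow_zero, one_mul]

lemma cube_lip {M a b : ℝ} (h0 : |a| ≤ M) (h1 : |b| ≤ M) :
    |(|a| ^ 3 - |b| ^ 3)| ≤ 3 * M ^ 2 * |a - b| := by
  have hM : 0 ≤ M := le_trans (abs_nonneg _) h0
  have e : |a| ^ 3 - |b| ^ 3 = (|a| - |b|) * (|a| ^ 2 + |a| * |b| + |b| ^ 2) := by ring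
  have hn : 0 ≤ |a| ^ 2 + |a| * |b| + |b| ^ 2 := by positivity
  rw [e, abs_mul, abs_of_nonneg hn, mul_comm]
  apply mul_le_mul _ (abs_abs_sub_abs_le_abs_sub _ _) (abs_nonneg _) (by positivity)
  have := abs_nonneg a
  have := abs_nonneg b
  nlinarith [mul_le_mul h0 h1 (abs_nonneg _) hM, mul_le_mul h0 h0 (abs_nonneg _) hM,
    mul_le_mul h1 h1 (abs_nonneg _) hM]

/-- The cube integral. -/
noncomputable def cubeI (F : ℝ → ℝ → ℝ) : ℝ :=
  ∫ p : ℝ × ℝ in Q, |F p.1 p.2| ^ (3 : ℕ)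

lemma l3Norm_eq (F : ℝ → ℝ → ℝ) : l3Norm F = (cubeI F) ^ ((1 : ℝ) / 3) := rfl

lemma integrableOn_cube {F : ℝ → ℝ → ℝ} (hF : Good M R F) :
    IntegrableOn (fun p : ℝ × ℝ => |F p.1 p.2| ^ (3 : ℕ)) Q := by
  have hM : 0 ≤ M := le_trans (abs_nonneg _) (hF.bdd 0 0)
  refine integrableOn_Q (hF.meas.abs.pow_const 3) (B := M ^ 3) (R := R) ?_ ?_
  · intro p
    rw [abs_pow, abs_abs]
    exact pow_le_pow_left₀ (abs_nonneg _) (hF.bdd _ _) 3
  · intro p h1 h2 h3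
    rw [hF.supp _ _ h1 h2 h3]
    simp

theorem cubeI_lip {F G : ℝ → ℝ → ℝ} (hF : Good M R F) (hG : Good M R G) :
    |cubeI F - cubeI G| ≤ 3 * M ^ 2 * d1 F G := by
  unfold cubeI d1
  rw [← integral_sub (integrableOn_cube hF) (integrableOn_cube hG), ← integral_const_mul]
  refine le_trans abs_integral_le_integral_abs ?_
  refine integral_mono ?_ ((integrableOn_diff hF hG).const_mul _) ?_
  · exact ((integrableOn_cube hF).sub (integrableOn_cube hG)).abs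
  · intro p
    exact cube_lip (hF.bdd _ _) (hG.bdd _ _)

lemma d1_nonneg (F G : ℝ → ℝ → ℝ) : 0 ≤ d1 F G :=
  integral_nonneg fun _ => abs_nonneg _

end Vale.Agent.Lib.P075.Cont
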