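import Vale.Agent.Lib.P075.ContDefs

/-!
# Values of the form on dyadic step functions
-/

open MeasureTheory Set

namespace Vale.Agent.Lib.P075.Cont

/-- Dyadic step function of scale `2^{-m}` with values `f`. -/
noncomputable def stepF (m : ℕ) (f : ℕ → ℕ → ℝ) (x y : ℝ) : ℝ :=
  f ⌊(2 : ℝ) ^ m * x⌋₊ ⌊(2 : ℝ) ^ m * y⌋₊

/-- The sign of the Haar function of block `a` of size `2^(K+1)`. -/
def sg (K a j : ℕ) : ℝ := if j < 2 ^ (K + 1) * a + 2 ^ K then 1 else -1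

/-- The block of indices of the dyadic interval number `a` of size `2^(K+1)`. -/
def blk (K a : ℕ) : Finset ℕ := Finset.Ico (2 ^ (K + 1) * a) (2 ^ (K + 1) * (a + 1))

/-- The discrete form of a triple of blocks of size `2^(K+1)`. -/
noncomputable def discL (K a b c : ℕ) (f0 f1 f2 : ℕ → ℕ → ℝ) : ℝ :=
  ((2 : ℝ) ^ (K + 1))⁻¹ * ∑ j0 ∈ blk K a, ∑ j1 ∈ blk K b, ∑ j2 ∈ blk K c,
    f0 j0 j1 * f1 j1 j2 * f2 j2 j0 * (sg K a j0 * sg K b j1 * sg K c j2)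

/-- The small interval number `j` of scale `2^{-m}`. -/
def J (m j : ℕ) : Set ℝ := Ico (((2 : ℝ) ^ m)⁻¹ * j) (((2 : ℝ) ^ m)⁻¹ * (j + 1))

lemma measurableSet_J (m j : ℕ) : MeasurableSet (J m j) := measurableSet_Ico

lemma volume_J (m j : ℕ) : volume (J m j) = ENNReal.ofReal (((2 : ℝ) ^ m)⁻¹) := by
  simp only [J, Real.volume_Ico]
  congr 1
  ring

lemma floor_of_mem_J {m j : ℕ} {x : ℝ} (hx : x ∈ J m j) : ⌊(2 : ℝ) ^ m * x⌋₊ = j := by
  have h2 : (0 : ℝ) < 2 ^ m := by positivity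
  obtain ⟨h1, h3⟩ := hx
  rw [Nat.floor_eq_iff (by
    have : (0 : ℝ) ≤ ((2 : ℝ) ^ m)⁻¹ * j := by positivity
    have : 0 ≤ x := le_trans this h1
    positivity)]
  constructor
  · have := mul_le_mul_of_nonneg_left h1 h2.le
    rwa [mul_inv_cancel_left₀ h2.ne'] at this
  · have := mul_lt_mul_of_pos_left h3 h2
    rwa [mul_inv_cancel_left₀ h2.ne'] at this

lemma J_disjoint (m : ℕ) {i j : ℕ} (h : i ≠ j) : Disjoint (J m i) (J m j) := by
  rw [Set.disjoint_left]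
  intro x hi hj
  exact h ((floor_of_mem_J hi).symm.trans (floor_of_mem_J hj))

/-- An interval with endpoints in the grid is the union of the small intervals. -/
lemma Ico_eq_biUnion (m a b : ℕ) :
    Ico (((2 : ℝ) ^ m)⁻¹ * a) (((2 : ℝ) ^ m)⁻¹ * b) = ⋃ j ∈ Finset.Ico a b, J m j := by
  have h2 : (0 : ℝ) < 2 ^ m := by positivity
  have hd : (0 : ℝ) < ((2 : ℝ) ^ m)⁻¹ := by positivity
  ext x
  simp only [mem_Ico, mem_iUnion, Finset.mem_Ico, J, exists_prop]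
  constructor
  · rintro ⟨h1, h3⟩
    have hx : 0 ≤ x := le_trans (by positivity) h1
    refine ⟨⌊(2 : ℝ) ^ m * x⌋₊, ⟨?_, ?_⟩, ?_, ?_⟩
    · apply Nat.le_floor
      have := mul_le_mul_of_nonneg_left h1 h2.le
      rwa [mul_inv_cancel_left₀ h2.ne'] at this
    · rw [Nat.floor_lt (by positivity)]
      have := mul_lt_mul_of_pos_left h3 h2
      rwa [mul_inv_cancel_left₀ h2.ne'] at this
    · have := Nat.floor_le (show 0 ≤ (2 : ℝ) ^ m * x by positivity)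
      have := mul_le_mul_of_nonneg_left this hd.le
      rwa [inv_mul_cancel_left₀ h2.ne'] at this
    · have := Nat.lt_floor_add_one ((2 : ℝ) ^ m * x)
      have := mul_lt_mul_of_pos_left this hd
      rwa [inv_mul_cancel_left₀ h2.ne'] at this
  · rintro ⟨j, ⟨h1, h3⟩, h4, h5⟩
    constructor
    · refine le_trans (mul_le_mul_of_nonneg_left ?_ hd.le) h4
      exact_mod_cast h1
    · refine lt_of_lt_of_le h5 (mul_le_mul_of_nonneg_left ?_ hd.le)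
      exact_mod_cast h3

/-- The three dimensional box lemma. -/
lemma setIntegral_box3 (m : ℕ) (A B C : Finset ℕ) (Φ : ℝ × ℝ × ℝ → ℝ) (c : ℕ → ℕ → ℕ → ℝ)
    (hΦ : ∀ j0 ∈ A, ∀ j1 ∈ B, ∀ j2 ∈ C, ∀ x ∈ J m j0, ∀ y ∈ J m j1, ∀ z ∈ J m j2,
      Φ (x, y, z) = c j0 j1 j2) :
    ∫ x in (⋃ j ∈ A, J m j) ×ˢ (⋃ j ∈ B, J m j) ×ˢ (⋃ j ∈ C, J m j), Φ x
      = (((2 : ℝ) ^ m)⁻¹) ^ 3 * ∑ j0 ∈ A, ∑ j1 ∈ B, ∑ j2 ∈ C, c j0 j1 j2 := by
  classical
  set box : ℕ × ℕ × ℕ → Set (ℝ × ℝ × ℝ) := fun t => J m t.1 ×ˢ J m t.2.1 ×ˢ J m t.2.2 with hbox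
  have hU : (⋃ j ∈ A, J m j) ×ˢ (⋃ j ∈ B, J m j) ×ˢ (⋃ j ∈ C, J m j)
      = ⋃ t ∈ A ×ˢ B ×ˢ C, box t := by
    ext ⟨x, y, z⟩
    simp only [hbox, mem_prod, mem_iUnion, Finset.mem_product, exists_prop, Prod.exists]
    constructor
    · rintro ⟨⟨a, ha, hx⟩, ⟨b, hb, hy⟩, ⟨c', hc, hz⟩⟩
      exact ⟨a, b, c', ⟨ha, hb, hc⟩, hx, hy, hz⟩
    · rintro ⟨a, b, c', ⟨ha, hb, hc⟩, hx, hy, hz⟩
      exact ⟨⟨a, ha, hx⟩, ⟨b, hb, hy⟩, ⟨c', hc, hz⟩⟩
  have hmeas : ∀ t, MeasurableSet (box t) := fun t =>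
    (measurableSet_J m _).prod ((measurableSet_J m _).prod (measurableSet_J m _))
  have hvol : ∀ t, volume (box t) = ENNReal.ofReal (((2 : ℝ) ^ m)⁻¹ ^ 3) := by
    intro t
    have hd : (0 : ℝ) ≤ ((2 : ℝ) ^ m)⁻¹ := by positivity
    simp only [hbox, Measure.volume_eq_prod, Measure.prod_prod]
    rw [volume_J, volume_J, volume_J, ← ENNReal.ofReal_mul hd, ← ENNReal.ofReal_mul hd]
    congr 1
    ring
  have hconst : ∀ t ∈ A ×ˢ B ×ˢ C, ∀ x ∈ box t, Φ x = c t.1 t.2.1 t.2.2 := by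
    rintro ⟨a, b, c'⟩ ht ⟨x, y, z⟩ hx
    simp only [Finset.mem_product] at ht
    simp only [hbox, mem_prod] at hx
    exact hΦ a ht.1 b ht.2.1 c' ht.2.2 x hx.1 y hx.2.1 z hx.2.2
  have hint : ∀ t ∈ A ×ˢ B ×ˢ C, ∫ x in box t, Φ x
      = ((2 : ℝ) ^ m)⁻¹ ^ 3 * c t.1 t.2.1 t.2.2 := by
    intro t ht
    rw [setIntegral_congr_fun (hmeas t) (fun x hx => hconst t ht x hx), setIntegral_const]
    simp only [Measure.real, hvol t, smul_eq_mul]
    rw [ENNReal.toReal_ofReal (by positivity)]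
  rw [hU, integral_biUnion_finset _ (fun t _ => hmeas t)]
  · rw [Finset.sum_congr rfl hint, ← Finset.mul_sum, Finset.sum_product]
    congr 1
    apply Finset.sum_congr rfl
    intro a _
    rw [Finset.sum_product]
  · rintro ⟨a, b, c'⟩ _ ⟨a', b', c''⟩ _ hne
    simp only [Function.onFun, hbox]
    by_cases h0 : a = a'
    · by_cases h1 : b = b'
      · have h2 : c' ≠ c'' := by
          intro h; exact hne (by rw [h0, h1, h])
        exact Set.disjoint_prod.2 (Or.inr (Set.disjoint_prod.2 (Or.inr (J_disjoint m h2))))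
      · exact Set.disjoint_prod.2 (Or.inr (Set.disjoint_prod.2 (Or.inl (J_disjoint m h1))))
    · exact Set.disjoint_prod.2 (Or.inl (J_disjoint m h0))
  · intro t ht
    have hfin : volume (box t) ≠ ⊤ := by rw [hvol]; exact ENNReal.ofReal_ne_top
    have : IntegrableOn (fun _ => c t.1 t.2.1 t.2.2) (box t) :=
      integrableOn_const hfin
    exact this.congr_fun (fun x hx => (hconst t ht x hx).symm) (hmeas t)

/-- The two dimensional box lemma. -/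
lemma setIntegral_box2 (m : ℕ) (A B : Finset ℕ) (Φ : ℝ × ℝ → ℝ) (c : ℕ → ℕ → ℝ)
    (hΦ : ∀ j0 ∈ A, ∀ j1 ∈ B, ∀ x ∈ J m j0, ∀ y ∈ J m j1, Φ (x, y) = c j0 j1) :
    ∫ x in (⋃ j ∈ A, J m j) ×ˢ (⋃ j ∈ B, J m j), Φ x
      = (((2 : ℝ) ^ m)⁻¹) ^ 2 * ∑ j0 ∈ A, ∑ j1 ∈ B, c j0 j1 := by
  classical
  set box : ℕ × ℕ → Set (ℝ × ℝ) := fun t => J m t.1 ×ˢ J m t.2 with hbox
  have hU : (⋃ j ∈ A, J m j) ×ˢ (⋃ j ∈ B, J m j) = ⋃ t ∈ A ×ˢ B, box t := by
    ext ⟨x, y⟩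
    simp only [hbox, mem_prod, mem_iUnion, Finset.mem_product, exists_prop, Prod.exists]
    constructor
    · rintro ⟨⟨a, ha, hx⟩, ⟨b, hb, hy⟩⟩
      exact ⟨a, b, ⟨ha, hb⟩, hx, hy⟩
    · rintro ⟨a, b, ⟨ha, hb⟩, hx, hy⟩
      exact ⟨⟨a, ha, hx⟩, ⟨b, hb, hy⟩⟩
  have hmeas : ∀ t, MeasurableSet (box t) := fun t =>
    (measurableSet_J m _).prod (measurableSet_J m _)
  have hvol : ∀ t, volume (box t) = ENNReal.ofReal (((2 : ℝ) ^ m)⁻¹ ^ 2) := by
    intro t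
    have hd : (0 : ℝ) ≤ ((2 : ℝ) ^ m)⁻¹ := by positivity
    simp only [hbox, Measure.volume_eq_prod, Measure.prod_prod]
    rw [volume_J, volume_J, ← ENNReal.ofReal_mul hd]
    congr 1
    ring
  have hconst : ∀ t ∈ A ×ˢ B, ∀ x ∈ box t, Φ x = c t.1 t.2 := by
    rintro ⟨a, b⟩ ht ⟨x, y⟩ hx
    simp only [Finset.mem_product] at ht
    simp only [hbox, mem_prod] at hx
    exact hΦ a ht.1 b ht.2 x hx.1 y hx.2
  have hint : ∀ t ∈ A ×ˢ B, ∫ x in box t, Φ x = ((2 : ℝ) ^ m)⁻¹ ^ 2 * c t.1 t.2 := by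
    intro t ht
    rw [setIntegral_congr_fun (hmeas t) (fun x hx => hconst t ht x hx), setIntegral_const]
    simp only [Measure.real, hvol t, smul_eq_mul]
    rw [ENNReal.toReal_ofReal (by positivity)]
  rw [hU, integral_biUnion_finset _ (fun t _ => hmeas t)]
  · rw [Finset.sum_congr rfl hint, ← Finset.mul_sum, Finset.sum_product]
  · rintro ⟨a, b⟩ _ ⟨a', b'⟩ _ hne
    simp only [Function.onFun, hbox]
    by_cases h0 : a = a'
    · have h1 : b ≠ b' := by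
        intro h; exact hne (by rw [h0, h])
      exact Set.disjoint_prod.2 (Or.inr (J_disjoint m h1))
    · exact Set.disjoint_prod.2 (Or.inl (J_disjoint m h0))
  · intro t ht
    have hfin : volume (box t) ≠ ⊤ := by rw [hvol]; exact ENNReal.ofReal_ne_top
    have : IntegrableOn (fun _ => c t.1 t.2) (box t) :=
      integrableOn_const hfin
    exact this.congr_fun (fun x hx => (hconst t ht x hx).symm) (hmeas t)


/-! ### Dyadic intervals as unions of small intervals -/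

section Level

variable {k : ℤ} {m K : ℕ}

lemma two_zpow_eq (hk : k + m = K + 1) : (2 : ℝ) ^ k = ((2 : ℝ) ^ m)⁻¹ * 2 ^ (K + 1) := by
  have h2 : (2 : ℝ) ≠ 0 := by norm_num
  have : k = ((K + 1 : ℕ) : ℤ) - (m : ℤ) := by push_cast; omega
  rw [this, zpow_sub₀ h2, zpow_natCast, zpow_natCast]
  field_simp

lemma dI_eq (hk : k + m = K + 1) (n : ℕ) : dI k n = ⋃ j ∈ blk K n, J m j := by
  rw [blk, ← Ico_eq_biUnion, dI, two_zpow_eq hk]
  push_cast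
  congr 1 <;> ring

lemma haar_of_mem (hk : k + m = K + 1) {n j : ℕ} (hj : j ∈ blk K n) {x : ℝ} (hx : x ∈ J m j) :
    haar k n x = sg K n j := by
  have h2 : (0 : ℝ) < 2 ^ m := by positivity
  have hd : (0 : ℝ) < ((2 : ℝ) ^ m)⁻¹ := by positivity
  simp only [blk, Finset.mem_Ico] at hj
  obtain ⟨hj1, hj2⟩ := hj
  obtain ⟨hx1, hx2⟩ := hx
  have hjR1 : ((2 : ℝ) ^ (K + 1) * n) ≤ j := by exact_mod_cast hj1
  have hjR2 : ((j : ℝ) + 1) ≤ 2 ^ (K + 1) * (n + 1) := by exact_mod_cast hj2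
  have e1 : (2 : ℝ) ^ k * n = ((2 : ℝ) ^ m)⁻¹ * (2 ^ (K + 1) * n) := by
    rw [two_zpow_eq hk]; ring
  have e2 : (2 : ℝ) ^ k * (n + 1 / 2) = ((2 : ℝ) ^ m)⁻¹ * (2 ^ (K + 1) * n + 2 ^ K) := by
    rw [two_zpow_eq hk]; ring
  have e3 : (2 : ℝ) ^ k * (n + 1) = ((2 : ℝ) ^ m)⁻¹ * (2 ^ (K + 1) * (n + 1)) := by
    rw [two_zpow_eq hk]; ring
  unfold haar sg dL dR
  by_cases h : j < 2 ^ (K + 1) * n + 2 ^ K
  · have hR : ((j : ℝ) + 1) ≤ 2 ^ (K + 1) * n + 2 ^ K := by exact_mod_cast h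
    rw [if_pos h, indicator_of_mem, indicator_of_notMem]
    · norm_num
    · simp only [mem_Ico, not_and, not_lt]
      intro h3
      exfalso
      rw [e2] at h3
      have := lt_of_le_of_lt h3 hx2
      have := lt_of_mul_lt_mul_left this hd.le
      linarith
    · simp only [mem_Ico]
      rw [e1, e2]
      constructor
      · exact le_trans (mul_le_mul_of_nonneg_left hjR1 hd.le) hx1
      · exact lt_of_lt_of_le hx2 (mul_le_mul_of_nonneg_left hR hd.le)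
  · have hR : ((2 : ℝ) ^ (K + 1) * n + 2 ^ K) ≤ j := by
      have : 2 ^ (K + 1) * n + 2 ^ K ≤ j := not_lt.1 h
      exact_mod_cast this
    rw [if_neg h, indicator_of_notMem, indicator_of_mem]
    · norm_num
    · simp only [mem_Ico]
      rw [e2, e3]
      constructor
      · exact le_trans (mul_le_mul_of_nonneg_left hR hd.le) hx1
      · exact lt_of_lt_of_le hx2 (mul_le_mul_of_nonneg_left hjR2 hd.le)
    · simp only [mem_Ico, not_and, not_lt]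
      intro _
      rw [e2]
      exact le_trans (mul_le_mul_of_nonneg_left hR hd.le) hx1

/-- The form on step functions is the discrete form. -/
lemma formL_stepF (hk : k + m = K + 1) (a b c : ℕ) (f0 f1 f2 : ℕ → ℕ → ℝ) :
    formL k a b c (stepF m f0) (stepF m f1) (stepF m f2)
      = ((2 : ℝ) ^ m)⁻¹ ^ 2 * discL K a b c f0 f1 f2 := by
  have h2 : (2 : ℝ) ^ m ≠ 0 := by positivity
  have h3 : (2 : ℝ) ^ (K + 1) ≠ 0 := by positivity
  unfold formL discL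
  rw [dI_eq hk, dI_eq hk, dI_eq hk]
  rw [setIntegral_box3 m (blk K a) (blk K b) (blk K c) _
    (fun j0 j1 j2 => f0 j0 j1 * f1 j1 j2 * f2 j2 j0 * (sg K a j0 * sg K b j1 * sg K c j2))]
  · have : (2 : ℝ) ^ (-k) = (2 : ℝ) ^ m * ((2 : ℝ) ^ (K + 1))⁻¹ := by
      rw [zpow_neg, two_zpow_eq hk]
      field_simp
    rw [this]
    field_simp
  · intro j0 hj0 j1 hj1 j2 hj2 x hx y hy z hz
    simp only [stepF]
    rw [floor_of_mem_J hx, floor_of_mem_J hy, floor_of_mem_J hz,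
      haar_of_mem hk hj0 hx, haar_of_mem hk hj1 hy, haar_of_mem hk hj2 hz]

end Level

/-! ### The `L^3` norm of a step function -/

/-- The discrete `ℓ^3` norm on `[0,2^n)^2`. -/
noncomputable def ell3 (n : ℕ) (f : ℕ → ℕ → ℝ) : ℝ :=
  (∑ j ∈ Finset.range (2 ^ n), ∑ j' ∈ Finset.range (2 ^ n), |f j j'| ^ (3 : ℕ)) ^ ((1 : ℝ) / 3)

lemma iUnion_range_J (m N : ℕ) : (⋃ j ∈ Finset.range N, J m j)
    = Ico (0 : ℝ) (((2 : ℝ) ^ m)⁻¹ * N) := by
  have := Ico_eq_biUnion m 0 N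
  simp only [Nat.cast_zero, mul_zero, Finset.range_eq_Ico] at this ⊢
  rw [this]

lemma integral_stepF_cube (m N : ℕ) (f : ℕ → ℕ → ℝ)
    (hf : ∀ j j', N ≤ j ∨ N ≤ j' → f j j' = 0) :
    ∫ p : ℝ × ℝ in Ici (0 : ℝ) ×ˢ Ici (0 : ℝ), |stepF m f p.1 p.2| ^ (3 : ℕ)
      = ((2 : ℝ) ^ m)⁻¹ ^ 2 * ∑ j ∈ Finset.range N, ∑ j' ∈ Finset.range N, |f j j'| ^ (3 : ℕ) := by
  have hd : (0 : ℝ) < ((2 : ℝ) ^ m)⁻¹ := by positivity
  have h2 : (0 : ℝ) < 2 ^ m := by positivity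
  have hsub : (⋃ j ∈ Finset.range N, J m j) ×ˢ (⋃ j ∈ Finset.range N, J m j)
      ⊆ Ici (0 : ℝ) ×ˢ Ici (0 : ℝ) := by
    rw [iUnion_range_J]
    exact Set.prod_mono (fun x hx => hx.1) (fun x hx => hx.1)
  have hzero : ∀ x ∈ (Ici (0 : ℝ) ×ˢ Ici (0 : ℝ)) \
      ((⋃ j ∈ Finset.range N, J m j) ×ˢ (⋃ j ∈ Finset.range N, J m j)),
      |stepF m f x.1 x.2| ^ (3 : ℕ) = 0 := by
    rintro ⟨x, y⟩ ⟨⟨hx, hy⟩, hnot⟩
    simp only [mem_Ici] at hx hy
    rw [iUnion_range_J] at hnot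
    simp only [mem_prod, mem_Ico, not_and_or, not_lt, not_le] at hnot
    have hfl : ∀ t : ℝ, ((2 : ℝ) ^ m)⁻¹ * N ≤ t → N ≤ ⌊(2 : ℝ) ^ m * t⌋₊ := by
      intro t ht
      apply Nat.le_floor
      have := mul_le_mul_of_nonneg_left ht h2.le
      rwa [mul_inv_cancel_left₀ h2.ne'] at this
    have : f ⌊(2 : ℝ) ^ m * x⌋₊ ⌊(2 : ℝ) ^ m * y⌋₊ = 0 := by
      apply hf
      rcases hnot with (h | h) | (h | h)
      · linarith
      · exact Or.inl (hfl _ h)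
      · linarith
      · exact Or.inr (hfl _ h)
    simp [stepF, this]
  rw [setIntegral_eq_of_subset_of_forall_sdiff_eq_zero
    (measurableSet_Ici.prod measurableSet_Ici) hsub hzero]
  apply setIntegral_box2 m (Finset.range N) (Finset.range N) _ (fun j j' => |f j j'| ^ (3 : ℕ))
  intro j0 _ j1 _ x hx y hy
  simp only [stepF]
  rw [floor_of_mem_J hx, floor_of_mem_J hy]

lemma l3Norm_stepF (m n : ℕ) (f : ℕ → ℕ → ℝ)
    (hf : ∀ j j', 2 ^ n ≤ j ∨ 2 ^ n ≤ j' → f j j' = 0) :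
    l3Norm (stepF m f) = (((2 : ℝ) ^ m)⁻¹ ^ 2) ^ ((1 : ℝ) / 3) * ell3 n f := by
  unfold l3Norm ell3
  rw [integral_stepF_cube m (2 ^ n) f hf, Real.mul_rpow (by positivity)]
  exact Finset.sum_nonneg (fun _ _ => Finset.sum_nonneg (fun _ _ => by positivity))

/-- The discrete theorem (the unit scale form of the main inequality). -/
def DT (C : ℝ) : Prop :=
  ∀ (n : ℕ) (f0 f1 f2 : ℕ → ℕ → ℝ),
    ∑ K ∈ Finset.range n, ∑ a ∈ Finset.range (2 ^ (n - (K + 1))),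
      ∑ b ∈ Finset.range (2 ^ (n - (K + 1))), |discL K a b (a ^^^ b) f0 f1 f2|
      ≤ C * ell3 n f0 * ell3 n f1 * ell3 n f2

/-- The level in the discrete form attached to the scale `m` and the level `k`. -/
def lev (m : ℕ) (k : ℤ) : ℕ := (k + m - 1).toNat

lemma lev_spec {m : ℕ} {k : ℤ} (h : 1 ≤ k + m) : k + m = (lev m k : ℤ) + 1 := by
  unfold lev
  rw [Int.toNat_of_nonneg (by omega)]
  omega

/-- The main inequality for dyadic step functions, for finitely many triples of finitely many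
levels. -/
theorem step_bound {C : ℝ} (hDT : DT C) (S : Finset ℤ) (P : Finset (ℕ × ℕ)) (m n : ℕ)
    (hm : ∀ k ∈ S, 1 ≤ k + m) (hn : ∀ k ∈ S, k + m ≤ n)
    (hP : ∀ k ∈ S, ∀ p ∈ P, p.1 < 2 ^ (n - (lev m k + 1)) ∧ p.2 < 2 ^ (n - (lev m k + 1)))
    (f0 f1 f2 : ℕ → ℕ → ℝ)
    (h0 : ∀ j j', 2 ^ n ≤ j ∨ 2 ^ n ≤ j' → f0 j j' = 0)
    (h1 : ∀ j j', 2 ^ n ≤ j ∨ 2 ^ n ≤ j' → f1 j j' = 0)
    (h2 : ∀ j j', 2 ^ n ≤ j ∨ 2 ^ n ≤ j' → f2 j j' = 0) :
    ∑ k ∈ S, ∑ p ∈ P, |formL k p.1 p.2 (p.1 ^^^ p.2) (stepF m f0) (stepF m f1) (stepF m f2)|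
      ≤ C * l3Norm (stepF m f0) * l3Norm (stepF m f1) * l3Norm (stepF m f2) := by
  classical
  have hd : (0 : ℝ) < ((2 : ℝ) ^ m)⁻¹ := by positivity
  have hterm : ∀ k ∈ S, ∀ p ∈ P,
      |formL k p.1 p.2 (p.1 ^^^ p.2) (stepF m f0) (stepF m f1) (stepF m f2)|
      = ((2 : ℝ) ^ m)⁻¹ ^ 2 * |discL (lev m k) p.1 p.2 (p.1 ^^^ p.2) f0 f1 f2| := by
    intro k hk p _
    rw [formL_stepF (lev_spec (hm k hk)), abs_mul, abs_of_pos (by positivity)]
  have hinj : Set.InjOn (lev m) (S : Set ℤ) := by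
    intro a ha b hb hab
    have h1 := lev_spec (hm a ha)
    have h2 := lev_spec (hm b hb)
    rw [hab] at h1
    omega
  have hsum : ∑ k ∈ S, ∑ p ∈ P, |discL (lev m k) p.1 p.2 (p.1 ^^^ p.2) f0 f1 f2|
      ≤ ∑ K ∈ Finset.range n, ∑ a ∈ Finset.range (2 ^ (n - (K + 1))),
        ∑ b ∈ Finset.range (2 ^ (n - (K + 1))), |discL K a b (a ^^^ b) f0 f1 f2| := by
    have hstep : ∀ k ∈ S, ∑ p ∈ P, |discL (lev m k) p.1 p.2 (p.1 ^^^ p.2) f0 f1 f2|
        ≤ ∑ a ∈ Finset.range (2 ^ (n - (lev m k + 1))),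
          ∑ b ∈ Finset.range (2 ^ (n - (lev m k + 1))),
            |discL (lev m k) a b (a ^^^ b) f0 f1 f2| := by
      intro k hk
      rw [← Finset.sum_product' (Finset.range _) (Finset.range _)
        (fun a b => |discL (lev m k) a b (a ^^^ b) f0 f1 f2|)]
      apply Finset.sum_le_sum_of_subset_of_nonneg
      · intro p hp
        have := hP k hk p hp
        simp only [Finset.mem_product, Finset.mem_range]
        exact this
      · intros; positivity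
    refine le_trans (Finset.sum_le_sum hstep) ?_
    rw [← Finset.sum_image (f := fun K => ∑ a ∈ Finset.range (2 ^ (n - (K + 1))),
      ∑ b ∈ Finset.range (2 ^ (n - (K + 1))), |discL K a b (a ^^^ b) f0 f1 f2|) hinj]
    apply Finset.sum_le_sum_of_subset_of_nonneg
    · intro K hK
      obtain ⟨k, hk, rfl⟩ := Finset.mem_image.1 hK
      have h1 := lev_spec (hm k hk)
      have h2 := hn k hk
      simp only [Finset.mem_range]
      omega
    · intros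
      exact Finset.sum_nonneg (fun _ _ => Finset.sum_nonneg (fun _ _ => abs_nonneg _))
  have hnorm : l3Norm (stepF m f0) * l3Norm (stepF m f1) * l3Norm (stepF m f2)
      = ((2 : ℝ) ^ m)⁻¹ ^ 2 * (ell3 n f0 * ell3 n f1 * ell3 n f2) := by
    rw [l3Norm_stepF m n f0 h0, l3Norm_stepF m n f1 h1, l3Norm_stepF m n f2 h2]
    set r := (((2 : ℝ) ^ m)⁻¹ ^ 2) ^ ((1 : ℝ) / 3) with hr
    have hr3 : r * r * r = ((2 : ℝ) ^ m)⁻¹ ^ 2 := by
      have hpos : (0 : ℝ) ≤ ((2 : ℝ) ^ m)⁻¹ ^ 2 := by positivity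
      rw [hr, ← Real.rpow_add' hpos (by norm_num), ← Real.rpow_add' hpos (by norm_num)]
      norm_num
    rw [← hr3]
    ring
  calc ∑ k ∈ S, ∑ p ∈ P,
        |formL k p.1 p.2 (p.1 ^^^ p.2) (stepF m f0) (stepF m f1) (stepF m f2)|
      = ((2 : ℝ) ^ m)⁻¹ ^ 2 * ∑ k ∈ S, ∑ p ∈ P,
          |discL (lev m k) p.1 p.2 (p.1 ^^^ p.2) f0 f1 f2| := by
        rw [Finset.mul_sum]
        apply Finset.sum_congr rfl
        intro k hk
        rw [Finset.mul_sum]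
        exact Finset.sum_congr rfl (hterm k hk)
    _ ≤ ((2 : ℝ) ^ m)⁻¹ ^ 2 * (C * ell3 n f0 * ell3 n f1 * ell3 n f2) :=
        mul_le_mul_of_nonneg_left (le_trans hsum (hDT n f0 f1 f2)) (by positivity)
    _ = C * l3Norm (stepF m f0) * l3Norm (stepF m f1) * l3Norm (stepF m f2) := by
        have : C * l3Norm (stepF m f0) * l3Norm (stepF m f1) * l3Norm (stepF m f2)
          = C * (l3Norm (stepF m f0) * l3Norm (stepF m f1) * l3Norm (stepF m f2)) := by ring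
        rw [this, hnorm]
        ring

end Vale.Agent.Lib.P075.Cont
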