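import Vale.Agent.Lib.P075.Mat

/-! Definitions shared by the modules of the dyadic triangular form proof. -/

set_option linter.unusedSectionVars false

open Matrix

namespace Vale.Agent.Lib.P075

/-- `tr |X|^3` for a rectangular matrix `X`, with `|X|` the psd root of `Xᵀ X`. -/
noncomputable def P3 {r c : Type*} [Fintype r] [Fintype c] [DecidableEq c]
    (X : Matrix r c ℝ) : ℝ := pot (Xᵀ * X)

variable {κ : Type*} [Fintype κ] [DecidableEq κ]

/-- The `(a,b)` block of a matrix indexed by `Bool × κ`. -/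
def blk (A : Matrix (Bool × κ) (Bool × κ) ℝ) (a b : Bool) : Matrix κ κ ℝ :=
  fun x y => A (a, x) (b, y)

/-- The potential of a triple of square matrices. -/
noncomputable def Psi (A B C : Matrix κ κ ℝ) : ℝ :=
  P3 (fromCols A Cᵀ) + P3 (fromCols B Aᵀ) + P3 (fromCols C Bᵀ)

/-- Haar sign at level `k`: `+1` on the left half of `[0, 2^k)`, `-1` on the right half. -/
noncomputable def hs (k x : ℕ) : ℝ := if x < 2 ^ (k - 1) then 1 else -1

/-- The discrete model of `L_I` for the block `(i0, i1, i2)` at level `k`, with unit cells. -/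
noncomputable def LD (F0 F1 F2 : ℕ → ℕ → ℝ) (k i0 i1 i2 : ℕ) : ℝ :=
  ((2:ℝ) ^ k)⁻¹ * ∑ x0 ∈ Finset.range (2 ^ k), ∑ x1 ∈ Finset.range (2 ^ k),
    ∑ x2 ∈ Finset.range (2 ^ k),
      F0 (i0 * 2 ^ k + x0) (i1 * 2 ^ k + x1) * F1 (i1 * 2 ^ k + x1) (i2 * 2 ^ k + x2) *
        F2 (i2 * 2 ^ k + x2) (i0 * 2 ^ k + x0) * (hs k x0 * hs k x1 * hs k x2)

/-- The sum of `|F|^3` over the cells of `[0, 2^n)^2`. -/
noncomputable def cube3 (n : ℕ) (F : ℕ → ℕ → ℝ) : ℝ :=
  ∑ x ∈ Finset.range (2 ^ n), ∑ y ∈ Finset.range (2 ^ n), |F x y| ^ 3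

end Vale.Agent.Lib.P075
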