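import Mathlib

/-! Matrix inequalities for the dyadic triangular form: an exact Young identity for cubes of
positive semidefinite roots, a well defined cubic potential, and the second difference bound. -/

set_option linter.unusedSectionVars false
set_option linter.unusedVariables false

open Matrix
open scoped MatrixOrder

namespace Vale.Agent.Lib.P075

variable {n m k : Type*} [Fintype n] [DecidableEq n] [Fintype m] [DecidableEq m]

theorem exists_root (c : Matrix n n ℝ) (hc : c.PosSemidef) :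
    ∃ L : Matrix n n ℝ, L.PosSemidef ∧ L * L = c := by
  have h0 : (0:Matrix n n ℝ) ≤ c := Matrix.nonneg_iff_posSemidef.mpr hc
  refine ⟨CFC.sqrt c, ?_, ?_⟩
  · exact Matrix.nonneg_iff_posSemidef.mp (CFC.sqrt_nonneg c)
  · exact CFC.sqrt_mul_sqrt_self c h0

theorem psd_transpose (P : Matrix n n ℝ) (hP : P.PosSemidef) : Pᵀ = P := by
  have := hP.1
  simpa [Matrix.IsHermitian, conjTranspose_eq_transpose_of_trivial] using this

theorem tr_mul_nonneg {P Q : Matrix n n ℝ} (hP : P.PosSemidef) (hQ : Q.PosSemidef) :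
    0 ≤ (P * Q).trace := by
  obtain ⟨L, hL, rfl⟩ := exists_root P hP
  have h := (hQ.mul_mul_conjTranspose_same L).trace_nonneg
  have hL' : Lᴴ = L := hL.1
  rw [hL'] at h
  have e : (L * L * Q).trace = (L * Q * L).trace := by
    rw [Matrix.mul_assoc, Matrix.trace_mul_comm, Matrix.mul_assoc]
  rw [e]; exact h

theorem psd_mul_transpose (X : Matrix m n ℝ) : (X * Xᵀ).PosSemidef := by
  simpa [conjTranspose_eq_transpose_of_trivial] using posSemidef_self_mul_conjTranspose X

theorem psd_transpose_mul (X : Matrix m n ℝ) : (Xᵀ * X).PosSemidef := by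
  simpa [conjTranspose_eq_transpose_of_trivial] using posSemidef_conjTranspose_mul_self X

theorem psd_conj {P : Matrix n n ℝ} (hP : P.PosSemidef) (X : Matrix m n ℝ) :
    (X * P * Xᵀ).PosSemidef := by
  simpa [conjTranspose_eq_transpose_of_trivial] using hP.mul_mul_conjTranspose_same X

/-- Form inequality `0 ≤ tr(Xᵀ P X)`. -/
theorem tr_conj_nonneg {P : Matrix n n ℝ} (hP : P.PosSemidef) (X : Matrix n m ℝ) :
    0 ≤ (Xᵀ * P * X).trace := by
  simpa using (psd_conj hP Xᵀ).trace_nonneg

section Young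

variable {L Y : Matrix n n ℝ}

/-- The exact Young identity. -/
theorem young_identity (L Y : Matrix n n ℝ) :
    (L * L * L).trace - (3/2) * (L * L * Y).trace + (1/2) * (Y * Y * Y).trace
      = ((L - Y) * (L - Y) * L).trace + (1/2) * ((L - Y) * (L - Y) * Y).trace := by
  have e1 : (L * Y * L).trace = (L * L * Y).trace := Matrix.trace_mul_cycle L Y L
  have e2 : (Y * L * L).trace = (L * L * Y).trace := by
    rw [Matrix.trace_mul_cycle, e1]
  have e3 : (Y * Y * L).trace = (L * Y * Y).trace := Matrix.trace_mul_cycle Y Y L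
  have e4 : (Y * L * Y).trace = (L * Y * Y).trace := by
    rw [Matrix.trace_mul_cycle, e3]
  simp only [sub_mul, mul_sub, Matrix.trace_sub, e1, e2, e3, e4]
  ring

theorem sq_psd_of_symm {E : Matrix n n ℝ} (hE : Eᵀ = E) : (E * E).PosSemidef := by
  have := psd_transpose_mul E
  rwa [hE] at this

theorem young (hL : L.PosSemidef) (hY : Y.PosSemidef) :
    (3/2) * (L * L * Y).trace ≤ (L * L * L).trace + (1/2) * (Y * Y * Y).trace := by
  have hE : (L - Y)ᵀ = L - Y := by
    rw [Matrix.transpose_sub, psd_transpose L hL, psd_transpose Y hY]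
  have h1 := tr_mul_nonneg (sq_psd_of_symm hE) hL
  have h2 := tr_mul_nonneg (sq_psd_of_symm hE) hY
  have := young_identity L Y
  linarith

end Young


section Pot

/-- A chosen positive semidefinite root. -/
noncomputable def rt (c : Matrix n n ℝ) : Matrix n n ℝ :=
  open scoped Classical in
  if h : c.PosSemidef then Classical.choose (exists_root c h) else 0

theorem rt_psd {c : Matrix n n ℝ} (h : c.PosSemidef) : (rt c).PosSemidef := by
  rw [rt, dif_pos h]; exact (Classical.choose_spec (exists_root c h)).1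

theorem rt_mul {c : Matrix n n ℝ} (h : c.PosSemidef) : rt c * rt c = c := by
  rw [rt, dif_pos h]; exact (Classical.choose_spec (exists_root c h)).2

/-- The cubic potential `tr c^{3/2}`. -/
noncomputable def pot (c : Matrix n n ℝ) : ℝ := (rt c * rt c * rt c).trace

theorem psd_of_root {c L : Matrix n n ℝ} (hL : L.PosSemidef) (h : L * L = c) : c.PosSemidef := by
  rw [← h]; exact sq_psd_of_symm (psd_transpose L hL)

theorem cube_eq {L R : Matrix n n ℝ} (hL : L.PosSemidef) (hR : R.PosSemidef) (h : L * L = R * R) :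
    (L * L * L).trace = (R * R * R).trace := by
  have h1 := young hL hR
  have h2 := young hR hL
  have e1 : (L * L * R).trace = (R * R * R).trace := by rw [h]
  have e2 : (R * R * L).trace = (L * L * L).trace := by rw [h]
  rw [e1] at h1
  rw [e2] at h2
  linarith

theorem pot_eq_of_root {c L : Matrix n n ℝ} (hL : L.PosSemidef) (h : L * L = c) :
    pot c = (L * L * L).trace := by
  have hc := psd_of_root hL h
  exact cube_eq (rt_psd hc) hL (by rw [rt_mul hc, h])

theorem pot_young {c Y : Matrix n n ℝ} (hc : c.PosSemidef) (hY : Y.PosSemidef) :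
    (3/2) * (c * Y).trace ≤ pot c + (1/2) * (Y * Y * Y).trace := by
  have h := young (rt_psd hc) hY
  have e : rt c * rt c * Y = c * Y := by rw [rt_mul hc]
  rw [e] at h
  exact h

theorem pot_nonneg {c : Matrix n n ℝ} (hc : c.PosSemidef) : 0 ≤ pot c := by
  have h := tr_mul_nonneg (psd_of_root (rt_psd hc) rfl) (rt_psd hc)
  exact h

theorem pot_scale {c : Matrix n n ℝ} (hc : c.PosSemidef) {t : ℝ} (ht : 0 ≤ t) :
    pot ((t^2) • c) = t^3 * pot c := by
  have hR := rt_psd hc
  have hT : (t • rt c).PosSemidef := by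
    simpa using hR.smul ht
  have e : (t • rt c) * (t • rt c) = (t^2) • c := by
    rw [Matrix.smul_mul, Matrix.mul_smul, smul_smul, rt_mul hc, pow_two]
  rw [pot_eq_of_root hT e, pot]
  simp only [Matrix.smul_mul, Matrix.mul_smul, Matrix.trace_smul, smul_smul, smul_eq_mul]
  ring

theorem pot_add_le {c d : Matrix n n ℝ} (hc : c.PosSemidef) (hd : d.PosSemidef) :
    pot (c + d) ≤ Real.sqrt 2 * (pot c + pot d) := by
  have hcd := hc.add hd
  set L := rt (c + d) with hLdef
  have hL : L.PosSemidef := rt_psd hcd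
  have hLL : L * L = c + d := rt_mul hcd
  set s := Real.sqrt 2 with hs
  have hs2 : s * s = 2 := Real.mul_self_sqrt (by norm_num)
  have hspos : 0 < s := Real.sqrt_pos.mpr (by norm_num)
  have hY : (s⁻¹ • L).PosSemidef := by
    simpa using hL.smul (le_of_lt (inv_pos.mpr hspos))
  have h1 := pot_young hc hY
  have h2 := pot_young hd hY
  have hT : pot (c + d) = (L * L * L).trace := rfl
  have eY : ((s⁻¹ • L) * (s⁻¹ • L) * (s⁻¹ • L)).trace = (s⁻¹)^3 * (L * L * L).trace := by
    simp only [Matrix.smul_mul, Matrix.mul_smul, Matrix.trace_smul, smul_smul, smul_eq_mul]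
    ring
  have eC : (c * (s⁻¹ • L)).trace + (d * (s⁻¹ • L)).trace = s⁻¹ * (L * L * L).trace := by
    rw [hLL, Matrix.add_mul, Matrix.trace_add]
    simp only [Matrix.mul_smul, Matrix.trace_smul, smul_eq_mul]
    ring
  rw [eY] at h1 h2
  have key : s⁻¹ * (L * L * L).trace ≤ pot c + pot d := by
    have e3 : (s⁻¹)^3 = s⁻¹ * (1/2) := by
      have : (s⁻¹)^2 = 1/2 := by
        field_simp
        nlinarith
      rw [pow_succ, this]; ring
    rw [e3] at h1 h2
    nlinarith
  rw [hT]
  have := mul_le_mul_of_nonneg_left key hspos.le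
  rw [← mul_assoc, mul_inv_cancel₀ hspos.ne', one_mul] at this
  exact this

end Pot

section Mono

/-- The square root is monotone, in the form needed here. -/
theorem sqrt_mono {P L : Matrix n n ℝ} (hP : P.PosSemidef) (hL : L.PosSemidef)
    (h : (P * P - L * L).PosSemidef) : (P - L).PosSemidef := by
  have hX : (P - L).IsHermitian := hP.1.sub hL.1
  rw [hX.posSemidef_iff_eigenvalues_nonneg]
  intro i
  by_contra hneg
  have hneg' : hX.eigenvalues i < 0 := not_le.mp hneg
  set v : n → ℝ := ⇑(hX.eigenvectorBasis i) with hv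
  set ξ := hX.eigenvalues i with hξ
  have hXv : (P - L) *ᵥ v = ξ • v := hX.mulVec_eigenvectorBasis i
  have hPs : Pᵀ = P := psd_transpose P hP
  have hLs : Lᵀ = L := psd_transpose L hL
  have hform := h.dotProduct_mulVec_nonneg v
  simp only [star_trivial] at hform
  have hPv := hP.dotProduct_mulVec_nonneg v
  have hLv := hL.dotProduct_mulVec_nonneg v
  simp only [star_trivial] at hPv hLv
  -- the key computation
  have hsym : ∀ (Q : Matrix n n ℝ) (x y : n → ℝ), Qᵀ = Q → x ⬝ᵥ (Q *ᵥ y) = (Q *ᵥ x) ⬝ᵥ y := by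
    intro Q x y hQ
    rw [Matrix.dotProduct_mulVec, ← Matrix.mulVec_transpose, hQ]
  have eq1 : P * P - L * L = (1/2 : ℝ) • ((P + L) * (P - L) + (P - L) * (P + L)) := by
    have : (P + L) * (P - L) + (P - L) * (P + L) = (2:ℝ) • (P * P - L * L) := by
      rw [two_smul]; noncomm_ring
    rw [this, smul_smul]; norm_num
  have e2 : v ⬝ᵥ ((P * P - L * L) *ᵥ v) = ξ * (v ⬝ᵥ ((P + L) *ᵥ v)) := by
    rw [eq1, Matrix.smul_mulVec, dotProduct_smul, Matrix.add_mulVec, dotProduct_add]
    rw [← Matrix.mulVec_mulVec, ← Matrix.mulVec_mulVec, hXv]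
    have hsX := hsym (P - L) v ((P + L) *ᵥ v)
      (by rw [Matrix.transpose_sub, hPs, hLs])
    rw [hsX, hXv]
    simp only [Matrix.mulVec_smul, dotProduct_smul, smul_dotProduct, smul_eq_mul]
    ring
  have hsum : 0 ≤ v ⬝ᵥ ((P + L) *ᵥ v) := by
    rw [Matrix.add_mulVec, dotProduct_add]; linarith
  have hzero : v ⬝ᵥ ((P + L) *ᵥ v) = 0 := by
    rw [e2] at hform
    nlinarith
  rw [Matrix.add_mulVec, dotProduct_add] at hzero
  have hP0 : v ⬝ᵥ (P *ᵥ v) = 0 := by linarith
  have hL0 : v ⬝ᵥ (L *ᵥ v) = 0 := by linarith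
  have hPk : P *ᵥ v = 0 := by
    simpa using (hP.dotProduct_mulVec_zero_iff v).mp (by simpa using hP0)
  have hLk : L *ᵥ v = 0 := by
    simpa using (hL.dotProduct_mulVec_zero_iff v).mp (by simpa using hL0)
  have : ξ • v = 0 := by
    rw [← hXv, Matrix.sub_mulVec, hPk, hLk, sub_zero]
  have hvne : v ≠ 0 := by
    intro h0
    have := hX.eigenvectorBasis.orthonormal.ne_zero i
    apply this
    ext j
    exact congrFun h0 j
  rcases smul_eq_zero.mp this with h1 | h1
  · exact hneg'.ne h1
  · exact hvne h1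

end Mono


section SecondDiff

theorem form_ineq {P E Z : Matrix n n ℝ} (hP : P.PosSemidef) (hE : Eᵀ = E) (hZ : Zᵀ = Z)
    {s : ℝ} (hs : 0 < s) :
    2 * (E * Z * P).trace ≤ s * (E * E * P).trace + (1/s) * (Z * Z * P).trace := by
  have hM : (s • E - Z)ᵀ = s • E - Z := by
    rw [Matrix.transpose_sub, Matrix.transpose_smul, hE, hZ]
  have h0 := tr_mul_nonneg (sq_psd_of_symm hM) hP
  have hPs := psd_transpose P hP
  have e1 : (Z * E * P).trace = (E * Z * P).trace := by
    rw [← Matrix.trace_transpose]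
    simp only [Matrix.transpose_mul, hE, hZ, hPs]
    rw [Matrix.trace_mul_cycle, Matrix.mul_assoc]
  have e2 : ((s • E - Z) * (s • E - Z) * P).trace
      = s^2 * (E * E * P).trace - 2 * s * (E * Z * P).trace + (Z * Z * P).trace := by
    simp only [sub_mul, mul_sub, Matrix.smul_mul, Matrix.mul_smul, Matrix.trace_sub,
      Matrix.trace_smul, smul_smul, smul_eq_mul, e1]
    ring
  rw [e2] at h0
  have : s * (2 * (E * Z * P).trace) ≤ s * (s * (E * E * P).trace + (1/s) * (Z * Z * P).trace) := by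
    have e3 : s * (s * (E * E * P).trace + (1/s) * (Z * Z * P).trace)
        = s^2 * (E * E * P).trace + (Z * Z * P).trace := by
      field_simp
    rw [e3]; linarith
  exact le_of_mul_le_mul_left this hs

theorem form_ineq_neg {P E Z : Matrix n n ℝ} (hP : P.PosSemidef) (hE : Eᵀ = E) (hZ : Zᵀ = Z)
    {s : ℝ} (hs : 0 < s) :
    - (2 * (E * Z * P).trace) ≤ s * (E * E * P).trace + (1/s) * (Z * Z * P).trace := by
  have hE' : (-E)ᵀ = -E := by rw [Matrix.transpose_neg, hE]
  have h := form_ineq hP hE' hZ hs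
  simpa [Matrix.neg_mul, Matrix.mul_neg, Matrix.trace_neg] using h

theorem tr_sq_diff {X L Z : Matrix n n ℝ} (hX : Xᵀ = X) (hL : Lᵀ = L) (hZ : Zᵀ = Z) :
    ((X * X - L * L) * Z).trace = ((X - L) * Z * X).trace + ((X - L) * Z * L).trace := by
  have hE : (X - L)ᵀ = X - L := by rw [Matrix.transpose_sub, hX, hL]
  have e0 : X * X - L * L = X * (X - L) + (X - L) * L := by noncomm_ring
  have e1 : (X * (X - L) * Z).trace = ((X - L) * Z * X).trace := by
    rw [Matrix.mul_assoc, Matrix.trace_mul_comm]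
  have e2 : ((X - L) * L * Z).trace = ((X - L) * Z * L).trace := by
    rw [← Matrix.trace_transpose]
    simp only [Matrix.transpose_mul, hE, hZ, hL]
    rw [← Matrix.mul_assoc, Matrix.trace_mul_cycle]
  rw [e0, Matrix.add_mul, Matrix.trace_add, e1, e2]

theorem second_diff {X0 X1 L Z : Matrix n n ℝ} (hX0 : X0.PosSemidef) (hX1 : X1.PosSemidef)
    (hL : L.PosSemidef) (hsum : X0 * X0 + X1 * X1 = (2:ℝ) • (L * L)) (hZ : Zᵀ = Z) :
    (((1/2:ℝ) • (X0 * X0 - X1 * X1)) * Z).trace - (L * Z * Z).trace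
      ≤ (3/4) * ((1/2) * ((X0 * X0 * X0).trace + (X1 * X1 * X1).trace) - (L * L * L).trace) := by
  have hX0s := psd_transpose X0 hX0
  have hX1s := psd_transpose X1 hX1
  have hLs := psd_transpose L hL
  have hE0 : (X0 - L)ᵀ = X0 - L := by rw [Matrix.transpose_sub, hX0s, hLs]
  have hE1 : (X1 - L)ᵀ = X1 - L := by rw [Matrix.transpose_sub, hX1s, hLs]
  have id0 := young_identity X0 L
  have id1 := young_identity X1 L
  have hsumL : (X0 * X0 * L).trace + (X1 * X1 * L).trace = 2 * (L * L * L).trace := by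
    have := congrArg (fun M => (M * L).trace) hsum
    simpa [Matrix.add_mul, Matrix.trace_add, Matrix.smul_mul, Matrix.trace_smul] using this
  -- the two expressions of the difference
  have e0 : (1/2:ℝ) • (X0 * X0 - X1 * X1) = X0 * X0 - L * L := by
    have : (2:ℝ) • (X0 * X0 - L * L) = X0 * X0 - X1 * X1 := by
      rw [smul_sub, ← hsum, two_smul]; noncomm_ring
    rw [← this, smul_smul]; norm_num
  have e1 : (1/2:ℝ) • (X0 * X0 - X1 * X1) = -(X1 * X1 - L * L) := by
    have : (2:ℝ) • (L * L - X1 * X1) = X0 * X0 - X1 * X1 := by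
      rw [smul_sub, ← hsum, two_smul]; noncomm_ring
    rw [← this, smul_smul, neg_sub]; norm_num
  have W0 : (((1/2:ℝ) • (X0 * X0 - X1 * X1)) * Z).trace
      = ((X0 - L) * Z * X0).trace + ((X0 - L) * Z * L).trace := by
    rw [e0]; exact tr_sq_diff hX0s hLs hZ
  have W1 : -(((1/2:ℝ) • (X0 * X0 - X1 * X1)) * Z).trace
      = ((X1 - L) * Z * X1).trace + ((X1 - L) * Z * L).trace := by
    rw [e1, Matrix.neg_mul, Matrix.trace_neg, neg_neg]; exact tr_sq_diff hX1s hLs hZ
  -- bounds
  have b1 := form_ineq hX0 hE0 hZ (s := 3/2) (by norm_num)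
  have b2 := form_ineq_neg hX1 hE1 hZ (s := 3/2) (by norm_num)
  have b3 := form_ineq hL hE0 hZ (s := 3/4) (by norm_num)
  have b4 := form_ineq_neg hL hE1 hZ (s := 3/4) (by norm_num)
  -- monotonicity of the root
  have hY : ((1/2:ℝ) • (X0 + X1)).PosSemidef := by
    simpa using (hX0.add hX1).smul (by norm_num : (0:ℝ) ≤ 1/2)
  have hD : (L * L - ((1/2:ℝ) • (X0 + X1)) * ((1/2:ℝ) • (X0 + X1))).PosSemidef := by
    have e : L * L - ((1/2:ℝ) • (X0 + X1)) * ((1/2:ℝ) • (X0 + X1))
        = (1/4:ℝ) • ((X0 - X1) * (X0 - X1)) := by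
      have hLL : L * L = (1/2:ℝ) • (X0 * X0 + X1 * X1) := by
        rw [hsum, smul_smul]; norm_num
      have ex1 : ((1/2:ℝ) • (X0 + X1)) * ((1/2:ℝ) • (X0 + X1))
          = (1/4:ℝ) • (X0 * X0 + X0 * X1 + X1 * X0 + X1 * X1) := by
        have ex0 : (X0 + X1) * (X0 + X1) = X0 * X0 + X0 * X1 + X1 * X0 + X1 * X1 := by
          noncomm_ring
        rw [Matrix.smul_mul, Matrix.mul_smul, smul_smul, ex0]
        norm_num
      have ex2 : (X0 - X1) * (X0 - X1) = X0 * X0 - X0 * X1 - X1 * X0 + X1 * X1 := by noncomm_ring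
      rw [hLL, ex1, ex2]
      module
    rw [e]
    have hS : (X0 - X1)ᵀ = X0 - X1 := by rw [Matrix.transpose_sub, hX0s, hX1s]
    simpa using (sq_psd_of_symm hS).smul (by norm_num : (0:ℝ) ≤ 1/4)
  have hmono := sqrt_mono hL hY hD
  have hZZ := sq_psd_of_symm hZ
  have hm := tr_mul_nonneg hZZ hmono
  have hm' : (Z * Z * X0).trace + (Z * Z * X1).trace ≤ 2 * (Z * Z * L).trace := by
    have e : (Z * Z * (L - (1/2:ℝ) • (X0 + X1))).trace
        = (Z * Z * L).trace - (1/2) * ((Z * Z * X0).trace + (Z * Z * X1).trace) := by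
      simp [Matrix.mul_sub, Matrix.mul_add, Matrix.trace_sub, Matrix.trace_add,
        Matrix.trace_smul]
      ring
    rw [e] at hm
    linarith
  have ht : (L * Z * Z).trace = (Z * Z * L).trace := by
    rw [Matrix.mul_assoc, Matrix.trace_mul_comm]
  rw [ht]
  norm_num at b1 b2 b3 b4
  nlinarith

end SecondDiff

section RowSplit

variable {κ j : Type*} [Fintype κ] [DecidableEq κ] [Fintype j] [DecidableEq j]

/-- The rows with first bit `a`. -/
def rows (F : Matrix (Bool × κ) j ℝ) (a : Bool) : Matrix κ j ℝ := fun k i => F (a, k) i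

/-- The Haar sign of the first bit: `+1` on the left half and `-1` on the right half. -/
def sg (a : Bool) : ℝ := if a then -1 else 1

/-- The Haar sign as a diagonal matrix. -/
def Sg (κ : Type*) [Fintype κ] [DecidableEq κ] : Matrix (Bool × κ) (Bool × κ) ℝ :=
  diagonal (fun x => sg x.1)

theorem transpose_mul_rows (F : Matrix (Bool × κ) j ℝ) :
    Fᵀ * F = (rows F false)ᵀ * rows F false + (rows F true)ᵀ * rows F true := by
  ext i i'
  simp [Matrix.mul_apply, rows, Fintype.sum_prod_type, add_comm]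

theorem transpose_sg_rows (F : Matrix (Bool × κ) j ℝ) :
    Fᵀ * Sg κ * F = (rows F false)ᵀ * rows F false - (rows F true)ᵀ * rows F true := by
  rw [Matrix.mul_assoc]
  ext i i'
  rw [Matrix.sub_apply, Matrix.mul_apply]
  have h : ∀ x, (Sg κ * F) x i' = sg x.1 * F x i' := fun x => by
    simp [Sg, Matrix.diagonal_mul]
  simp only [h, Matrix.mul_apply, transpose_apply, rows]
  rw [Fintype.sum_prod_type, Fintype.sum_bool]
  simp [sg]
  ring

theorem row_step (F : Matrix (Bool × κ) j ℝ) {Z : Matrix j j ℝ} (hZ : Zᵀ = Z) :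
    (Fᵀ * Sg κ * F * Z).trace - (rt (Fᵀ * F) * Z * Z).trace
      ≤ (3/4) * (Real.sqrt 2 * (pot ((rows F false)ᵀ * rows F false)
          + pot ((rows F true)ᵀ * rows F true)) - pot (Fᵀ * F)) := by
  set c0 := (rows F false)ᵀ * rows F false with hc0
  set c1 := (rows F true)ᵀ * rows F true with hc1
  have h0 : c0.PosSemidef := psd_transpose_mul _
  have h1 : c1.PosSemidef := psd_transpose_mul _
  have hW : (Fᵀ * F).PosSemidef := psd_transpose_mul _
  set s := Real.sqrt 2 with hs
  have hspos : 0 ≤ s := Real.sqrt_nonneg _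
  have hs2 : s ^ 2 = 2 := Real.sq_sqrt (by norm_num)
  have hX0 : (s • rt c0).PosSemidef := by simpa using (rt_psd h0).smul hspos
  have hX1 : (s • rt c1).PosSemidef := by simpa using (rt_psd h1).smul hspos
  have eX0 : (s • rt c0) * (s • rt c0) = (2:ℝ) • c0 := by
    rw [Matrix.smul_mul, Matrix.mul_smul, smul_smul, rt_mul h0, ← pow_two, hs2]
  have eX1 : (s • rt c1) * (s • rt c1) = (2:ℝ) • c1 := by
    rw [Matrix.smul_mul, Matrix.mul_smul, smul_smul, rt_mul h1, ← pow_two, hs2]
  have hsum : (s • rt c0) * (s • rt c0) + (s • rt c1) * (s • rt c1)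
      = (2:ℝ) • (rt (Fᵀ * F) * rt (Fᵀ * F)) := by
    rw [eX0, eX1, rt_mul hW, transpose_mul_rows, smul_add]
  have key := second_diff hX0 hX1 (rt_psd hW) hsum hZ
  have e1 : (1/2:ℝ) • ((s • rt c0) * (s • rt c0) - (s • rt c1) * (s • rt c1)) = Fᵀ * Sg κ * F := by
    rw [eX0, eX1, transpose_sg_rows, ← smul_sub, smul_smul]; norm_num; rfl
  rw [e1] at key
  have e3 : ∀ c : Matrix j j ℝ, ((s • rt c) * (s • rt c) * (s • rt c)).trace
      = s^3 * pot c := by
    intro c
    simp only [Matrix.smul_mul, Matrix.mul_smul, Matrix.trace_smul, smul_smul, smul_eq_mul, pot]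
    ring
  rw [e3, e3] at key
  have hs3 : s^3 = 2 * s := by
    rw [pow_succ, hs2]
  rw [hs3] at key
  have eT : (rt (Fᵀ * F) * rt (Fᵀ * F) * rt (Fᵀ * F)).trace = pot (Fᵀ * F) := rfl
  rw [eT] at key
  have : (1/2:ℝ) * (2 * s * pot c0 + 2 * s * pot c1) = s * (pot c0 + pot c1) := by ring
  rw [this] at key
  exact key

end RowSplit

end Vale.Agent.Lib.P075
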