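import Vale.Agent.Lib.P075.Vertex

/-! The one-level inequality for the triple trace. -/

set_option linter.unusedSectionVars false
set_option linter.unusedVariables false

open Matrix

namespace Vale.Agent.Lib.P075

variable {κ : Type*} [Fintype κ] [DecidableEq κ]

theorem adj_dot {o c : Type*} [Fintype o] [Fintype c] (M : Matrix o c ℝ) (x : c → ℝ) (y : o → ℝ) :
    (M *ᵥ x) ⬝ᵥ y = x ⬝ᵥ (Mᵀ *ᵥ y) := by
  rw [Matrix.dotProduct_mulVec, Matrix.vecMul_transpose]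

theorem contraction {r p o : Type*} [Fintype r] [Fintype p] [Fintype o] [DecidableEq r]
    [DecidableEq p] (V : Matrix o r ℝ) (W : Matrix o p ℝ) (d : r → ℝ)
    (hV : Vᵀ * V = diagonal d) (hd : ∀ i, d i ≤ 1) (hW : Wᵀ * W = 1)
    (a : r → ℝ) (b : p → ℝ) :
    2 * ∑ i, ∑ j, a i * (Vᵀ * W) i j * b j ≤ ∑ i, a i ^ 2 + ∑ j, b j ^ 2 := by
  set u := V *ᵥ a with hu
  set w := W *ᵥ b with hw
  have h0 : 0 ≤ (u - w) ⬝ᵥ (u - w) := by
    simp only [dotProduct]
    exact Finset.sum_nonneg fun i _ => mul_self_nonneg _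
  have e1 : u ⬝ᵥ u = ∑ i, d i * a i ^ 2 := by
    have : u ⬝ᵥ u = a ⬝ᵥ ((Vᵀ * V) *ᵥ a) := by
      rw [← Matrix.mulVec_mulVec, hu, adj_dot]
    rw [this, hV]
    simp only [dotProduct, Matrix.mulVec_diagonal]
    exact Finset.sum_congr rfl fun i _ => by ring
  have e2 : w ⬝ᵥ w = ∑ j, b j ^ 2 := by
    have : w ⬝ᵥ w = b ⬝ᵥ ((Wᵀ * W) *ᵥ b) := by
      rw [← Matrix.mulVec_mulVec, hw, adj_dot]
    rw [this, hW, Matrix.one_mulVec]
    simp only [dotProduct]
    exact Finset.sum_congr rfl fun i _ => by ring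
  have e3 : u ⬝ᵥ w = ∑ i, ∑ j, a i * (Vᵀ * W) i j * b j := by
    have : u ⬝ᵥ w = a ⬝ᵥ ((Vᵀ * W) *ᵥ b) := by
      rw [← Matrix.mulVec_mulVec, hw, hu, adj_dot]
    rw [this]
    simp only [dotProduct, Matrix.mulVec, Finset.mul_sum]
    exact Finset.sum_congr rfl fun i _ => Finset.sum_congr rfl fun j _ => by ring
  have e4 : (u - w) ⬝ᵥ (u - w) = u ⬝ᵥ u - 2 * (u ⬝ᵥ w) + w ⬝ᵥ w := by
    simp only [sub_dotProduct, dotProduct_sub, dotProduct_comm w u]
    ring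
  have e5 : ∑ i, d i * a i ^ 2 ≤ ∑ i, a i ^ 2 := by
    refine Finset.sum_le_sum fun i _ => ?_
    exact mul_le_of_le_one_left (sq_nonneg _) (hd i)
  rw [e4, e1, e2, e3] at h0
  linarith

theorem trace_expand {p : Type*} [Fintype p] [DecidableEq p] (α β γ : p → ℝ)
    (X Y Z : Matrix p p ℝ) :
    (diagonal α * Y * diagonal β * Z * diagonal γ * X).trace
      = ∑ i, ∑ j, ∑ k, α i * β j * γ k * X k i * Y i j * Z j k := by
  have h1 : ∀ i j, (diagonal α * Y * diagonal β) i j = α i * Y i j * β j := by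
    intro i j; rw [Matrix.mul_diagonal, Matrix.diagonal_mul]
  simp only [Matrix.trace, Matrix.diag_apply]
  refine Finset.sum_congr rfl fun i _ => ?_
  rw [Matrix.mul_apply]
  have h2 : ∀ k, (diagonal α * Y * diagonal β * Z * diagonal γ) i k * X k i
      = ∑ j, α i * β j * γ k * X k i * Y i j * Z j k := by
    intro k
    rw [Matrix.mul_diagonal, Matrix.mul_apply, Finset.sum_mul, Finset.sum_mul]
    refine Finset.sum_congr rfl fun j _ => ?_
    rw [h1]; ring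
  simp only [h2]
  exact Finset.sum_comm

theorem Sg_conj_one {p : Type*} [Fintype p] [DecidableEq p] (U : Matrix (Bool × κ) p ℝ)  (hU : Uᵀ * U = 1) :
    (Sg κ * U)ᵀ * (Sg κ * U) = 1 := by
  rw [Matrix.transpose_mul, Sg_transpose, Matrix.mul_assoc, ← Matrix.mul_assoc (Sg κ), Sg_sq,
    Matrix.one_mul, hU]

theorem nz_le {p : Type*} (s : p → ℝ) (i : p) : (if s i = 0 then (0:ℝ) else 1) ≤ 1 := by
  split_ifs <;> norm_num

/-- The one-level inequality. -/
theorem one_level (A B C : Matrix (Bool × κ) (Bool × κ) ℝ) :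
    |(Sg κ * A * Sg κ * B * Sg κ * C).trace| ≤ (3/4) * (2 * ∑ a : Bool, ∑ b : Bool,
        Psi (blk A a b) (blk B b (xor a b)) (blk C (xor a b) a) - Psi A B C) := by
  obtain ⟨SA⟩ := exists_svd A
  obtain ⟨SB⟩ := exists_svd B
  obtain ⟨SC⟩ := exists_svd C
  set α := SA.s with hα
  set β := SB.s with hβ
  set γ := SC.s with hγ
  set X := SC.Vᵀ * Sg κ * SA.U with hX
  set Y := SA.Vᵀ * Sg κ * SB.U with hY
  set Z := SB.Vᵀ * Sg κ * SC.U with hZ
  have hexp : (Sg κ * A * Sg κ * B * Sg κ * C).trace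
      = ∑ p, ∑ q, ∑ r, α p * β q * γ r * X r p * Y p q * Z q r := by
    rw [← trace_expand]
    have e : Sg κ * A * Sg κ * B * Sg κ * C
        = Sg κ * (SA.U * diagonal α * SA.Vᵀ) * Sg κ * (SB.U * diagonal β * SB.Vᵀ) * Sg κ
          * (SC.U * diagonal γ * SC.Vᵀ) := by
      rw [← SA.hA, ← SB.hA, ← SC.hA]
    rw [e]
    calc (Sg κ * (SA.U * diagonal α * SA.Vᵀ) * Sg κ * (SB.U * diagonal β * SB.Vᵀ) * Sg κ
          * (SC.U * diagonal γ * SC.Vᵀ)).trace
        = ((Sg κ * SA.U) * (diagonal α * Y * diagonal β * Z * diagonal γ * SC.Vᵀ)).trace := by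
          rw [hY, hZ]; simp only [Matrix.mul_assoc]
      _ = ((diagonal α * Y * diagonal β * Z * diagonal γ * SC.Vᵀ) * (Sg κ * SA.U)).trace :=
          Matrix.trace_mul_comm _ _
      _ = (diagonal α * Y * diagonal β * Z * diagonal γ * X).trace := by
          rw [hX]; simp only [Matrix.mul_assoc]
  have cX : ∀ (a : Bool × κ → ℝ) (b : Bool × κ → ℝ),
      2 * ∑ r, ∑ p, a r * X r p * b p ≤ ∑ r, a r ^ 2 + ∑ p, b p ^ 2 := by
    intro a b
    have h := contraction SC.V (Sg κ * SA.U) _ SC.hV (nz_le SC.s) (Sg_conj_one _ SA.hU1) a b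
    rwa [← Matrix.mul_assoc] at h
  have cY : ∀ (a : Bool × κ → ℝ) (b : Bool × κ → ℝ),
      2 * ∑ p, ∑ q, a p * Y p q * b q ≤ ∑ p, a p ^ 2 + ∑ q, b q ^ 2 := by
    intro a b
    have h := contraction SA.V (Sg κ * SB.U) _ SA.hV (nz_le SA.s) (Sg_conj_one _ SB.hU1) a b
    rwa [← Matrix.mul_assoc] at h
  have cZ : ∀ (a : Bool × κ → ℝ) (b : Bool × κ → ℝ),
      2 * ∑ q, ∑ r, a q * Z q r * b r ≤ ∑ q, a q ^ 2 + ∑ r, b r ^ 2 := by
    intro a b
    have h := contraction SB.V (Sg κ * SC.U) _ SB.hV (nz_le SB.s) (Sg_conj_one _ SC.hU1) a b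
    rwa [← Matrix.mul_assoc] at h
  have tri := triangle_abs α β γ SA.hs SB.hs SC.hs X Y Z cX cY cZ
  have v0 := vertex A C SA SC
  have v1 := vertex B A SB SA
  have v2 := vertex C B SC SB
  have e1 : ∑ p, ∑ q, mm (α p) (β q) * (Y p q)^2
      = ∑ r, ∑ p, mm (SB.s p) (SA.s r) * ((SA.Vᵀ * Sg κ * SB.U) r p)^2 := by
    refine Finset.sum_congr rfl fun p _ => Finset.sum_congr rfl fun q _ => ?_
    rw [mm_comm]
  have e2 : ∑ q, ∑ r, mm (β q) (γ r) * (Z q r)^2
      = ∑ r, ∑ p, mm (SC.s p) (SB.s r) * ((SB.Vᵀ * Sg κ * SC.U) r p)^2 := by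
    refine Finset.sum_congr rfl fun p _ => Finset.sum_congr rfl fun q _ => ?_
    rw [mm_comm]
  rw [hexp]
  rw [e1, e2] at tri
  have hsum : ∑ a : Bool, ∑ b : Bool, Psi (blk A a b) (blk B b (xor a b)) (blk C (xor a b) a)
      = ∑ a : Bool, ∑ b : Bool, P3 (fromCols (blk A a b) (blk C (xor a b) a)ᵀ)
        + ∑ a : Bool, ∑ b : Bool, P3 (fromCols (blk B a b) (blk A (xor a b) a)ᵀ)
        + ∑ a : Bool, ∑ b : Bool, P3 (fromCols (blk C a b) (blk B (xor a b) a)ᵀ) := by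
    simp only [Psi, Fintype.sum_bool, Bool.xor_true, Bool.xor_false, Bool.not_true, Bool.not_false]
    ring
  rw [hsum]
  unfold Psi
  linarith

theorem P3_nonneg {r c : Type*} [Fintype r] [DecidableEq r] [Fintype c] [DecidableEq c] (X : Matrix r c ℝ) :
    0 ≤ P3 X := pot_nonneg (psd_transpose_mul X)

theorem P3_fromCols_le (A C : Matrix κ κ ℝ) :
    P3 (fromCols A Cᵀ) ≤ Real.sqrt 2 * (P3 A + P3 C) := by
  have e : fromCols A Cᵀ * (fromCols A Cᵀ)ᵀ = A * Aᵀ + Cᵀ * C := by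
    rw [transpose_fromCols, fromCols_mul_fromRows, Matrix.transpose_transpose]
  have h := pot_add_le (psd_mul_transpose A) (psd_transpose_mul C)
  unfold P3
  rw [pot_swap, e, pot_swap A]
  exact h

theorem P3_unit (A : Matrix Unit Unit ℝ) : P3 A = |A () ()| ^ 3 := by
  set a := A () () with ha
  have hA : A = fun _ _ => a := by
    ext i j; rfl
  set L : Matrix Unit Unit ℝ := diagonal fun _ => |a| with hL
  have hLpsd : L.PosSemidef := Matrix.PosSemidef.diagonal fun _ => abs_nonneg a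
  have hLL : L * L = Aᵀ * A := by
    ext i j
    simp [hL, Matrix.mul_apply, ← ha, abs_mul_abs_self]
  unfold P3
  rw [pot_eq_of_root hLpsd hLL]
  simp [hL, Matrix.trace, pow_succ]

end Vale.Agent.Lib.P075
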