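import Vale.Agent.Lib.P075.Mat

/-! A light singular value decomposition of a real rectangular matrix and its consequences. -/

set_option linter.unusedSectionVars false
set_option linter.unusedVariables false

open Matrix

namespace Vale.Agent.Lib.P075

variable {n m : Type*} [Fintype n] [DecidableEq n] [Fintype m] [DecidableEq m]

/-- Singular value data: `A = U diag(s) Vᵀ`, with `U` orthogonal and the columns of `V` orthonormal
where `s ≠ 0` and zero elsewhere. -/
structure SVDL (A : Matrix m n ℝ) where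
  U : Matrix m m ℝ
  V : Matrix n m ℝ
  s : m → ℝ
  hs : ∀ p, 0 ≤ s p
  hU1 : Uᵀ * U = 1
  hU2 : U * Uᵀ = 1
  hV : Vᵀ * V = diagonal (fun p => if s p = 0 then 0 else 1)
  hA : A = U * diagonal s * Vᵀ

theorem exists_svd (A : Matrix m n ℝ) : Nonempty (SVDL A) := by
  have hc : (A * Aᵀ).PosSemidef := psd_mul_transpose A
  have hH : (A * Aᵀ).IsHermitian := hc.1
  set U : Matrix m m ℝ := (hH.eigenvectorUnitary : Matrix m m ℝ) with hUdef
  set lam : m → ℝ := hH.eigenvalues with hlam
  have hlam0 : ∀ p, 0 ≤ lam p := fun p => hc.eigenvalues_nonneg p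
  have hU1 : Uᵀ * U = 1 := by
    have := Matrix.UnitaryGroup.star_mul_self hH.eigenvectorUnitary
    simpa [Matrix.star_eq_conjTranspose, conjTranspose_eq_transpose_of_trivial] using this
  have hU2 : U * Uᵀ = 1 := by
    have h := hH.eigenvectorUnitary.2
    have := (Matrix.mem_unitaryGroup_iff).mp h
    simpa [Matrix.star_eq_conjTranspose, conjTranspose_eq_transpose_of_trivial] using this
  have hspec : A * Aᵀ = U * diagonal lam * Uᵀ := by
    have := hH.spectral_theorem
    rw [Unitary.conjStarAlgAut_apply] at this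
    simpa [Matrix.star_eq_conjTranspose, conjTranspose_eq_transpose_of_trivial, Function.comp_def]
      using this
  set s : m → ℝ := fun p => Real.sqrt (lam p) with hsdef
  have hs0 : ∀ p, 0 ≤ s p := fun p => Real.sqrt_nonneg _
  have hss : ∀ p, s p * s p = lam p := fun p => Real.mul_self_sqrt (hlam0 p)
  set inv : m → ℝ := fun p => if s p = 0 then 0 else (s p)⁻¹ with hinvdef
  set nz : m → ℝ := fun p => if s p = 0 then 0 else 1 with hnzdef
  set V : Matrix n m ℝ := Aᵀ * U * diagonal inv with hVdef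
  have hVt : Vᵀ = diagonal inv * Uᵀ * A := by
    rw [hVdef, Matrix.transpose_mul, Matrix.transpose_mul, Matrix.diagonal_transpose,
      Matrix.transpose_transpose, Matrix.mul_assoc]
  have hUcU : Uᵀ * (A * Aᵀ) * U = diagonal lam := by
    rw [hspec]
    calc Uᵀ * (U * diagonal lam * Uᵀ) * U = (Uᵀ * U) * diagonal lam * (Uᵀ * U) := by
          simp only [Matrix.mul_assoc]
      _ = diagonal lam := by rw [hU1]; simp
  have hVV : Vᵀ * V = diagonal nz := by
    rw [hVt, hVdef]
    calc diagonal inv * Uᵀ * A * (Aᵀ * U * diagonal inv)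
        = diagonal inv * (Uᵀ * (A * Aᵀ) * U) * diagonal inv := by
          simp only [Matrix.mul_assoc]
      _ = diagonal nz := by
          rw [hUcU, Matrix.diagonal_mul_diagonal, Matrix.diagonal_mul_diagonal]
          congr 1
          funext p
          by_cases h : s p = 0
          · simp [hinvdef, hnzdef, h]
          · simp only [hinvdef, hnzdef, h, if_false]
            rw [← hss p]; field_simp
  have hsN : diagonal s * diagonal inv = diagonal nz := by
    rw [Matrix.diagonal_mul_diagonal]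
    congr 1
    funext p
    by_cases h : s p = 0
    · simp [hinvdef, hnzdef, h]
    · simp [hinvdef, hnzdef, h]
  have hT : (1 - diagonal nz) * Uᵀ * A = 0 := by
    have hTT : ((1 - diagonal nz) * Uᵀ * A) * ((1 - diagonal nz) * Uᵀ * A)ᴴ = 0 := by
      rw [conjTranspose_eq_transpose_of_trivial]
      have e : ((1 - diagonal nz) * Uᵀ * A)ᵀ = Aᵀ * U * (1 - diagonal nz) := by
        rw [Matrix.transpose_mul, Matrix.transpose_mul, Matrix.transpose_transpose,
          Matrix.transpose_sub, Matrix.transpose_one, Matrix.diagonal_transpose, Matrix.mul_assoc]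
      rw [e]
      calc (1 - diagonal nz) * Uᵀ * A * (Aᵀ * U * (1 - diagonal nz))
          = (1 - diagonal nz) * (Uᵀ * (A * Aᵀ) * U) * (1 - diagonal nz) := by
            simp only [Matrix.mul_assoc]
        _ = 0 := by
            have h1n : (1 : Matrix m m ℝ) - diagonal nz = diagonal (fun p => 1 - nz p) := by
              ext i j
              by_cases h : i = j
              · subst h; simp
              · simp [h, Matrix.one_apply_ne]
            rw [hUcU, h1n, Matrix.diagonal_mul_diagonal, Matrix.diagonal_mul_diagonal]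
            rw [← Matrix.diagonal_zero]
            congr 1
            funext p
            by_cases h : s p = 0
            · have : lam p = 0 := by rw [← hss p, h]; ring
              simp [hnzdef, h, this]
            · simp [hnzdef, h]
    exact Matrix.self_mul_conjTranspose_eq_zero.mp hTT
  have hUA : Uᵀ * A = diagonal nz * Uᵀ * A := by
    have : (1 - diagonal nz) * Uᵀ * A = Uᵀ * A - diagonal nz * Uᵀ * A := by
      rw [Matrix.sub_mul, Matrix.sub_mul, Matrix.one_mul]
    rw [this] at hT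
    exact sub_eq_zero.mp hT
  have hAeq : A = U * diagonal s * Vᵀ := by
    rw [hVt]
    calc A = (U * Uᵀ) * A := by rw [hU2, Matrix.one_mul]
      _ = U * (Uᵀ * A) := by rw [Matrix.mul_assoc]
      _ = U * (diagonal nz * Uᵀ * A) := by rw [← hUA]
      _ = U * ((diagonal s * diagonal inv) * Uᵀ * A) := by rw [hsN]
      _ = U * diagonal s * (diagonal inv * Uᵀ * A) := by simp only [Matrix.mul_assoc]
  exact ⟨⟨U, V, s, hs0, hU1, hU2, hVV, hAeq⟩⟩

namespace SVDL

variable {A : Matrix m n ℝ} (S : SVDL A)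

theorem ds_nz : diagonal S.s * diagonal (fun p => if S.s p = 0 then (0:ℝ) else 1) = diagonal S.s := by
  rw [Matrix.diagonal_mul_diagonal]
  congr 1
  funext p
  by_cases h : S.s p = 0
  · simp [h]
  · simp [h]

theorem nz_ds : diagonal (fun p => if S.s p = 0 then (0:ℝ) else 1) * diagonal S.s = diagonal S.s := by
  rw [Matrix.diagonal_mul_diagonal]
  congr 1
  funext p
  by_cases h : S.s p = 0
  · simp [h]
  · simp [h]

theorem ds_psd : (diagonal S.s).PosSemidef := by
  apply Matrix.PosSemidef.diagonal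
  exact fun p => S.hs p

/-- The root of `A Aᵀ`. -/
def PL : Matrix m m ℝ := S.U * diagonal S.s * S.Uᵀ

/-- The root of `Aᵀ A`. -/
def PR : Matrix n n ℝ := S.V * diagonal S.s * S.Vᵀ

theorem PL_psd : S.PL.PosSemidef := psd_conj S.ds_psd S.U

theorem PR_psd : S.PR.PosSemidef := psd_conj S.ds_psd S.V

theorem vt_v_ds : S.Vᵀ * S.V * diagonal S.s = diagonal S.s := by
  rw [S.hV, S.nz_ds]

theorem At_eq : Aᵀ = S.V * diagonal S.s * S.Uᵀ := by
  have h : Aᵀ = (S.U * diagonal S.s * S.Vᵀ)ᵀ := congrArg transpose S.hA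
  rw [h, Matrix.transpose_mul, Matrix.transpose_mul, Matrix.transpose_transpose,
    Matrix.diagonal_transpose, Matrix.mul_assoc]

theorem mul_At_eq : A * Aᵀ = S.U * diagonal S.s * S.Vᵀ * (S.V * diagonal S.s * S.Uᵀ) := by
  rw [S.At_eq]
  exact congrArg (· * _) S.hA

theorem At_mul_eq : Aᵀ * A = S.V * diagonal S.s * S.Uᵀ * (S.U * diagonal S.s * S.Vᵀ) := by
  rw [S.At_eq]
  exact congrArg (_ * ·) S.hA

theorem PL_sq : S.PL * S.PL = A * Aᵀ := by
  rw [S.mul_At_eq]
  unfold PL
  calc S.U * diagonal S.s * S.Uᵀ * (S.U * diagonal S.s * S.Uᵀ)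
      = S.U * diagonal S.s * (S.Uᵀ * S.U) * diagonal S.s * S.Uᵀ := by simp only [Matrix.mul_assoc]
    _ = S.U * (diagonal S.s * (S.Vᵀ * S.V * diagonal S.s)) * S.Uᵀ := by
        rw [S.hU1, S.vt_v_ds]; simp only [Matrix.mul_one, Matrix.mul_assoc]
    _ = S.U * diagonal S.s * S.Vᵀ * (S.V * diagonal S.s * S.Uᵀ) := by simp only [Matrix.mul_assoc]

theorem PR_sq : S.PR * S.PR = Aᵀ * A := by
  rw [S.At_mul_eq]
  unfold PR
  calc S.V * diagonal S.s * S.Vᵀ * (S.V * diagonal S.s * S.Vᵀ)
      = S.V * (diagonal S.s * (S.Vᵀ * S.V * diagonal S.s)) * S.Vᵀ := by simp only [Matrix.mul_assoc]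
    _ = S.V * (diagonal S.s * (S.Uᵀ * S.U) * diagonal S.s) * S.Vᵀ := by
        rw [S.hU1, S.vt_v_ds]; simp only [Matrix.mul_one]
    _ = S.V * diagonal S.s * S.Uᵀ * (S.U * diagonal S.s * S.Vᵀ) := by simp only [Matrix.mul_assoc]

theorem PL_cube : (S.PL * S.PL * S.PL).trace = ∑ p, (S.s p)^3 := by
  unfold PL
  have e : S.U * diagonal S.s * S.Uᵀ * (S.U * diagonal S.s * S.Uᵀ) * (S.U * diagonal S.s * S.Uᵀ)
      = S.U * (diagonal S.s * (S.Uᵀ * S.U) * diagonal S.s * (S.Uᵀ * S.U) * diagonal S.s) * S.Uᵀ := by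
    simp only [Matrix.mul_assoc]
  rw [e, S.hU1, Matrix.mul_one, Matrix.mul_one, Matrix.trace_mul_comm, ← Matrix.mul_assoc,
    ← Matrix.mul_assoc, ← Matrix.mul_assoc, S.hU1, Matrix.one_mul]
  simp only [Matrix.diagonal_mul_diagonal, Matrix.trace_diagonal]
  exact Finset.sum_congr rfl fun p _ => by ring

theorem PR_cube : (S.PR * S.PR * S.PR).trace = ∑ p, (S.s p)^3 := by
  unfold PR
  have e : S.V * diagonal S.s * S.Vᵀ * (S.V * diagonal S.s * S.Vᵀ) * (S.V * diagonal S.s * S.Vᵀ)
      = S.V * (diagonal S.s * (S.Vᵀ * S.V * diagonal S.s) * (S.Vᵀ * S.V * diagonal S.s)) * S.Vᵀ := by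
    simp only [Matrix.mul_assoc]
  rw [e, S.vt_v_ds, Matrix.trace_mul_comm, ← Matrix.mul_assoc]
  have e2 : S.Vᵀ * S.V * (diagonal S.s * diagonal S.s * diagonal S.s)
      = (S.Vᵀ * S.V * diagonal S.s) * (diagonal S.s * diagonal S.s) := by
    simp only [Matrix.mul_assoc]
  rw [e2, S.vt_v_ds]
  simp only [Matrix.diagonal_mul_diagonal, Matrix.trace_diagonal]
  exact Finset.sum_congr rfl fun p _ => by ring

end SVDL

/-- The key symmetry: `tr |A|^3 = tr |Aᵀ|^3`. -/
theorem pot_swap (A : Matrix m n ℝ) : pot (Aᵀ * A) = pot (A * Aᵀ) := by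
  obtain ⟨S⟩ := exists_svd A
  rw [pot_eq_of_root S.PR_psd S.PR_sq, pot_eq_of_root S.PL_psd S.PL_sq, S.PR_cube, S.PL_cube]

end Vale.Agent.Lib.P075
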