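import Mathlib

/-! The triangle lemma: splitting a triple sum according to which weight is largest. -/

set_option linter.unusedSectionVars false
set_option linter.unusedVariables false

namespace Vale.Agent.Lib.P075

open Finset

/-- The weight `min(s,t)^2 max(s,t)`. -/
noncomputable def mm (s t : ℝ) : ℝ := (min s t)^2 * max s t

theorem mm_comm (s t : ℝ) : mm s t = mm t s := by
  simp [mm, min_comm, max_comm]

theorem mm_of_le {s t : ℝ} (h : s ≤ t) : mm s t = s^2 * t := by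
  simp [mm, min_eq_left h, max_eq_right h]

theorem mm_of_ge {s t : ℝ} (h : t ≤ s) : mm s t = t^2 * s := by
  simp [mm, min_eq_right h, max_eq_left h]

variable {P Q R : Type*} [Fintype P] [Fintype Q] [Fintype R]

theorem rot1 (g : Q → R → P → ℝ) :
    ∑ q, ∑ r, ∑ p, g q r p = ∑ p, ∑ q, ∑ r, g q r p := by
  calc ∑ q, ∑ r, ∑ p, g q r p = ∑ q, ∑ p, ∑ r, g q r p :=
        Finset.sum_congr rfl fun q _ => Finset.sum_comm
    _ = ∑ p, ∑ q, ∑ r, g q r p := Finset.sum_comm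

theorem rot2 (g : R → P → Q → ℝ) :
    ∑ r, ∑ p, ∑ q, g r p q = ∑ p, ∑ q, ∑ r, g r p q := by
  calc ∑ r, ∑ p, ∑ q, g r p q = ∑ p, ∑ r, ∑ q, g r p q := Finset.sum_comm
    _ = ∑ p, ∑ q, ∑ r, g r p q := Finset.sum_congr rfl fun p _ => Finset.sum_comm

theorem triangle_upper (α : P → ℝ) (β : Q → ℝ) (γ : R → ℝ)
    (hα : ∀ p, 0 ≤ α p) (hβ : ∀ q, 0 ≤ β q) (hγ : ∀ r, 0 ≤ γ r)
    (X : R → P → ℝ) (Y : P → Q → ℝ) (Z : Q → R → ℝ)
    (hX : ∀ (a : R → ℝ) (b : P → ℝ),
      2 * ∑ r, ∑ p, a r * X r p * b p ≤ ∑ r, a r ^ 2 + ∑ p, b p ^ 2)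
    (hY : ∀ (a : P → ℝ) (b : Q → ℝ),
      2 * ∑ p, ∑ q, a p * Y p q * b q ≤ ∑ p, a p ^ 2 + ∑ q, b q ^ 2)
    (hZ : ∀ (a : Q → ℝ) (b : R → ℝ),
      2 * ∑ q, ∑ r, a q * Z q r * b r ≤ ∑ q, a q ^ 2 + ∑ r, b r ^ 2) :
    ∑ p, ∑ q, ∑ r, α p * β q * γ r * X r p * Y p q * Z q r
      ≤ (1/2) * (∑ r, ∑ p, mm (α p) (γ r) * (X r p)^2
          + ∑ p, ∑ q, mm (α p) (β q) * (Y p q)^2
          + ∑ q, ∑ r, mm (β q) (γ r) * (Z q r)^2) := by
  classical
  -- the three groups of truncated coefficients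
  let a : P → Q → ℝ := fun p q => if β q ≤ α p then β q * Y p q else 0
  let b : P → R → ℝ := fun p r => if γ r ≤ α p then γ r * X r p else 0
  let c : Q → R → ℝ := fun q r => if γ r ≤ β q then γ r * Z q r else 0
  let d : Q → P → ℝ := fun q p => if α p < β q then α p * Y p q else 0
  let e : R → P → ℝ := fun r p => if α p < γ r then α p * X r p else 0
  let f : R → Q → ℝ := fun r q => if β q < γ r then β q * Z q r else 0
  have hA : ∀ p, 2 * ∑ q, ∑ r, a p q * Z q r * b p r ≤ ∑ q, (a p q)^2 + ∑ r, (b p r)^2 :=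
    fun p => hZ (a p) (b p)
  have hB : ∀ q, 2 * ∑ r, ∑ p, c q r * X r p * d q p ≤ ∑ r, (c q r)^2 + ∑ p, (d q p)^2 :=
    fun q => hX (c q) (d q)
  have hC : ∀ r, 2 * ∑ p, ∑ q, e r p * Y p q * f r q ≤ ∑ p, (e r p)^2 + ∑ q, (f r q)^2 :=
    fun r => hY (e r) (f r)
  -- the decomposition of the sum
  have dec : ∑ p, ∑ q, ∑ r, α p * β q * γ r * X r p * Y p q * Z q r
      = ∑ p, α p * ∑ q, ∑ r, a p q * Z q r * b p r
        + ∑ q, β q * ∑ r, ∑ p, c q r * X r p * d q p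
        + ∑ r, γ r * ∑ p, ∑ q, e r p * Y p q * f r q := by
    have e1 : ∑ p, α p * ∑ q, ∑ r, a p q * Z q r * b p r
        = ∑ p, ∑ q, ∑ r, α p * (a p q * Z q r * b p r) := by
      simp only [Finset.mul_sum]
    have e2 : ∑ q, β q * ∑ r, ∑ p, c q r * X r p * d q p
        = ∑ p, ∑ q, ∑ r, β q * (c q r * X r p * d q p) := by
      rw [← rot1]; simp only [Finset.mul_sum]
    have e3 : ∑ r, γ r * ∑ p, ∑ q, e r p * Y p q * f r q
        = ∑ p, ∑ q, ∑ r, γ r * (e r p * Y p q * f r q) := by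
      rw [← rot2]; simp only [Finset.mul_sum]
    rw [e1, e2, e3, ← Finset.sum_add_distrib, ← Finset.sum_add_distrib]
    refine Finset.sum_congr rfl fun p _ => ?_
    rw [← Finset.sum_add_distrib, ← Finset.sum_add_distrib]
    refine Finset.sum_congr rfl fun q _ => ?_
    rw [← Finset.sum_add_distrib, ← Finset.sum_add_distrib]
    refine Finset.sum_congr rfl fun r _ => ?_
    simp only [a, b, c, d, e, f]
    by_cases h1 : β q ≤ α p
    · by_cases h2 : γ r ≤ α p
      · have h3 : ¬ α p < β q := not_lt.mpr h1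
        have h4 : ¬ α p < γ r := not_lt.mpr h2
        simp only [h1, h2, h3, h4, if_true, if_false]
        ring
      · have h4 : α p < γ r := not_le.mp h2
        have h5 : β q < γ r := lt_of_le_of_lt h1 h4
        have h3 : ¬ α p < β q := not_lt.mpr h1
        simp only [h1, h2, h3, h4, h5, if_true, if_false]
        ring
    · have h3 : α p < β q := not_le.mp h1
      by_cases h2 : γ r ≤ β q
      · have h4 : ¬ β q < γ r := not_lt.mpr h2
        simp only [h1, h2, h3, h4, if_true, if_false]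
        ring
      · have h4 : β q < γ r := not_le.mp h2
        have h5 : α p < γ r := h3.trans h4
        simp only [h1, h2, h3, h4, h5, if_true, if_false]
        ring
  -- the three bounds
  have bA : ∑ p, α p * ∑ q, ∑ r, a p q * Z q r * b p r
      ≤ (1/2) * ∑ p, α p * (∑ q, (a p q)^2 + ∑ r, (b p r)^2) := by
    rw [Finset.mul_sum]
    refine Finset.sum_le_sum fun p _ => ?_
    have := mul_le_mul_of_nonneg_left (hA p) (hα p)
    linarith
  have bB : ∑ q, β q * ∑ r, ∑ p, c q r * X r p * d q p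
      ≤ (1/2) * ∑ q, β q * (∑ r, (c q r)^2 + ∑ p, (d q p)^2) := by
    rw [Finset.mul_sum]
    refine Finset.sum_le_sum fun q _ => ?_
    have := mul_le_mul_of_nonneg_left (hB q) (hβ q)
    linarith
  have bC : ∑ r, γ r * ∑ p, ∑ q, e r p * Y p q * f r q
      ≤ (1/2) * ∑ r, γ r * (∑ p, (e r p)^2 + ∑ q, (f r q)^2) := by
    rw [Finset.mul_sum]
    refine Finset.sum_le_sum fun r _ => ?_
    have := mul_le_mul_of_nonneg_left (hC r) (hγ r)
    linarith
  -- grouping
  have gY : ∑ p, α p * ∑ q, (a p q)^2 + ∑ q, β q * ∑ p, (d q p)^2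
      = ∑ p, ∑ q, mm (α p) (β q) * (Y p q)^2 := by
    have : ∑ q, β q * ∑ p, (d q p)^2 = ∑ p, ∑ q, β q * (d q p)^2 := by
      simp only [Finset.mul_sum]; exact Finset.sum_comm
    rw [this]
    simp only [Finset.mul_sum]
    rw [← Finset.sum_add_distrib]
    refine Finset.sum_congr rfl fun p _ => ?_
    rw [← Finset.sum_add_distrib]
    refine Finset.sum_congr rfl fun q _ => ?_
    simp only [a, d]
    by_cases h1 : β q ≤ α p
    · have h3 : ¬ α p < β q := not_lt.mpr h1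
      simp only [h1, h3, if_true, if_false, mm_of_ge h1]
      ring
    · have h3 : α p < β q := not_le.mp h1
      simp only [h1, h3, if_true, if_false, mm_of_le h3.le]
      ring
  have gX : ∑ p, α p * ∑ r, (b p r)^2 + ∑ r, γ r * ∑ p, (e r p)^2
      = ∑ r, ∑ p, mm (α p) (γ r) * (X r p)^2 := by
    have : ∑ p, α p * ∑ r, (b p r)^2 = ∑ r, ∑ p, α p * (b p r)^2 := by
      simp only [Finset.mul_sum]; exact Finset.sum_comm
    rw [this]
    simp only [Finset.mul_sum]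
    rw [← Finset.sum_add_distrib]
    refine Finset.sum_congr rfl fun r _ => ?_
    rw [← Finset.sum_add_distrib]
    refine Finset.sum_congr rfl fun p _ => ?_
    simp only [b, e]
    by_cases h1 : γ r ≤ α p
    · have h3 : ¬ α p < γ r := not_lt.mpr h1
      simp only [h1, h3, if_true, if_false, mm_of_ge h1]
      ring
    · have h3 : α p < γ r := not_le.mp h1
      simp only [h1, h3, if_true, if_false, mm_of_le h3.le]
      ring
  have gZ : ∑ q, β q * ∑ r, (c q r)^2 + ∑ r, γ r * ∑ q, (f r q)^2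
      = ∑ q, ∑ r, mm (β q) (γ r) * (Z q r)^2 := by
    have : ∑ r, γ r * ∑ q, (f r q)^2 = ∑ q, ∑ r, γ r * (f r q)^2 := by
      simp only [Finset.mul_sum]; exact Finset.sum_comm
    rw [this]
    simp only [Finset.mul_sum]
    rw [← Finset.sum_add_distrib]
    refine Finset.sum_congr rfl fun q _ => ?_
    rw [← Finset.sum_add_distrib]
    refine Finset.sum_congr rfl fun r _ => ?_
    simp only [c, f]
    by_cases h1 : γ r ≤ β q
    · have h3 : ¬ β q < γ r := not_lt.mpr h1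
      simp only [h1, h3, if_true, if_false, mm_of_ge h1]
      ring
    · have h3 : β q < γ r := not_le.mp h1
      simp only [h1, h3, if_true, if_false, mm_of_le h3.le]
      ring
  rw [dec, ← gX, ← gY, ← gZ]
  simp only [mul_add, Finset.sum_add_distrib] at bA bB bC
  linarith

theorem triangle_abs (α : P → ℝ) (β : Q → ℝ) (γ : R → ℝ)
    (hα : ∀ p, 0 ≤ α p) (hβ : ∀ q, 0 ≤ β q) (hγ : ∀ r, 0 ≤ γ r)
    (X : R → P → ℝ) (Y : P → Q → ℝ) (Z : Q → R → ℝ)
    (hX : ∀ (a : R → ℝ) (b : P → ℝ),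
      2 * ∑ r, ∑ p, a r * X r p * b p ≤ ∑ r, a r ^ 2 + ∑ p, b p ^ 2)
    (hY : ∀ (a : P → ℝ) (b : Q → ℝ),
      2 * ∑ p, ∑ q, a p * Y p q * b q ≤ ∑ p, a p ^ 2 + ∑ q, b q ^ 2)
    (hZ : ∀ (a : Q → ℝ) (b : R → ℝ),
      2 * ∑ q, ∑ r, a q * Z q r * b r ≤ ∑ q, a q ^ 2 + ∑ r, b r ^ 2) :
    |∑ p, ∑ q, ∑ r, α p * β q * γ r * X r p * Y p q * Z q r|
      ≤ (1/2) * (∑ r, ∑ p, mm (α p) (γ r) * (X r p)^2
          + ∑ p, ∑ q, mm (α p) (β q) * (Y p q)^2
          + ∑ q, ∑ r, mm (β q) (γ r) * (Z q r)^2) := by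
  rw [abs_le]
  constructor
  · have hX' : ∀ (a : R → ℝ) (b : P → ℝ),
        2 * ∑ r, ∑ p, a r * (-X r p) * b p ≤ ∑ r, a r ^ 2 + ∑ p, b p ^ 2 := by
      intro a b
      have := hX (fun r => - a r) b
      simpa [mul_neg, neg_mul] using this
    have h := triangle_upper α β γ hα hβ hγ (fun r p => - X r p) Y Z hX' hY hZ
    simp only [neg_sq, mul_neg, neg_mul, Finset.sum_neg_distrib] at h
    linarith
  · exact triangle_upper α β γ hα hβ hγ X Y Z hX hY hZ

end Vale.Agent.Lib.P075
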