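import Vale.Agent.Lib.P075.Svd
import Vale.Agent.Lib.P075.Tri
import Vale.Agent.Lib.P075.Defs

/-! The inequality at one vertex: the off-diagonal test and the singular value test. -/

set_option linter.unusedSectionVars false
set_option linter.unusedVariables false

open Matrix

namespace Vale.Agent.Lib.P075

variable {κ n1 n2 : Type*} [Fintype κ] [DecidableEq κ] [Fintype n1] [DecidableEq n1]
  [Fintype n2] [DecidableEq n2]

theorem Sg_transpose : (Sg κ)ᵀ = Sg κ := by
  simp [Sg, Matrix.diagonal_transpose]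

theorem Sg_sq : Sg κ * Sg κ = 1 := by
  simp only [Sg, Matrix.diagonal_mul_diagonal]
  rw [← Matrix.diagonal_one]
  congr 1
  funext x
  by_cases h : x.1 <;> simp [sg, h]

theorem trace_fb (A : Matrix n1 n1 ℝ) (B : Matrix n1 n2 ℝ) (C : Matrix n2 n1 ℝ) (D : Matrix n2 n2 ℝ) :
    (fromBlocks A B C D).trace = A.trace + D.trace := by
  simp [Matrix.trace, Fintype.sum_sum_type]

/-- Principal blocks of a psd root are below the roots of the diagonal blocks of the square. -/
theorem off_diag (A : Matrix (Bool × κ) n1 ℝ) (C' : Matrix (Bool × κ) n2 ℝ) (y : Matrix n2 n1 ℝ)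
    {PA : Matrix n1 n1 ℝ} {PC : Matrix n2 n2 ℝ} (hPA : PA.PosSemidef) (hPA2 : PA * PA = Aᵀ * A)
    (hPC : PC.PosSemidef) (hPC2 : PC * PC = C'ᵀ * C') :
    2 * (C'ᵀ * Sg κ * A * yᵀ).trace - (PA * (yᵀ * y)).trace - (PC * (y * yᵀ)).trace
      ≤ (3/4) * (Real.sqrt 2 * (pot ((rows (fromCols A C') false)ᵀ * rows (fromCols A C') false)
          + pot ((rows (fromCols A C') true)ᵀ * rows (fromCols A C') true))
          - pot ((fromCols A C')ᵀ * fromCols A C')) := by
  set F := fromCols A C' with hF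
  set Z : Matrix (n1 ⊕ n2) (n1 ⊕ n2) ℝ := fromBlocks 0 yᵀ y 0 with hZdef
  have hZ : Zᵀ = Z := by
    rw [hZdef, fromBlocks_transpose]; simp
  have key := row_step F hZ
  have hFF : Fᵀ * F = fromBlocks (Aᵀ * A) (Aᵀ * C') (C'ᵀ * A) (C'ᵀ * C') := by
    rw [hF, transpose_fromCols, fromRows_mul_fromCols]
  have hFS : Fᵀ * Sg κ * F = fromBlocks (Aᵀ * Sg κ * A) (Aᵀ * Sg κ * C') (C'ᵀ * Sg κ * A)
      (C'ᵀ * Sg κ * C') := by
    rw [hF, transpose_fromCols, fromRows_mul, fromRows_mul_fromCols]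
  have hPsd : (Fᵀ * F).PosSemidef := psd_transpose_mul F
  set L := rt (Fᵀ * F) with hLdef
  have hL : L.PosSemidef := rt_psd hPsd
  have hLL : L * L = Fᵀ * F := rt_mul hPsd
  have hLs : Lᵀ = L := psd_transpose L hL
  set L11 := L.toBlocks₁₁ with hL11
  set L12 := L.toBlocks₁₂ with hL12
  set L21 := L.toBlocks₂₁ with hL21
  set L22 := L.toBlocks₂₂ with hL22
  have hLb : fromBlocks L11 L12 L21 L22 = L := fromBlocks_toBlocks L
  have h2112 : L21 = L12ᵀ := by
    ext i j
    have := congrFun (congrFun hLs (Sum.inl j)) (Sum.inr i)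
    simpa [hL21, hL12, toBlocks₂₁, toBlocks₁₂, transpose_apply, Matrix.of_apply] using this
  have hsq : fromBlocks L11 L12 L21 L22 * fromBlocks L11 L12 L21 L22
      = fromBlocks (Aᵀ * A) (Aᵀ * C') (C'ᵀ * A) (C'ᵀ * C') := by
    rw [hLb, hLL, hFF]
  rw [fromBlocks_multiply] at hsq
  obtain ⟨h11, -, -, h22⟩ := fromBlocks_inj.mp hsq
  have hL11psd : L11.PosSemidef := by
    have := hL.submatrix (Sum.inl : n1 → n1 ⊕ n2)
    simpa [hL11, toBlocks₁₁, Matrix.submatrix, Matrix.of] using this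
  have hL22psd : L22.PosSemidef := by
    have := hL.submatrix (Sum.inr : n2 → n1 ⊕ n2)
    simpa [hL22, toBlocks₂₂, Matrix.submatrix, Matrix.of] using this
  have hd1 : (PA - L11).PosSemidef := by
    apply sqrt_mono hPA hL11psd
    have : PA * PA - L11 * L11 = L12 * L12ᵀ := by
      rw [hPA2, ← h11, h2112]; abel
    rw [this]
    exact psd_mul_transpose L12
  have hd2 : (PC - L22).PosSemidef := by
    apply sqrt_mono hPC hL22psd
    have : PC * PC - L22 * L22 = L12ᵀ * L12 := by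
      rw [hPC2, ← h22, h2112]; abel
    rw [this]
    exact psd_transpose_mul L12
  have t1 : (L11 * (yᵀ * y)).trace ≤ (PA * (yᵀ * y)).trace := by
    have := tr_mul_nonneg hd1 (psd_transpose_mul y)
    rw [Matrix.sub_mul, Matrix.trace_sub] at this
    linarith
  have t2 : (L22 * (y * yᵀ)).trace ≤ (PC * (y * yᵀ)).trace := by
    have := tr_mul_nonneg hd2 (psd_mul_transpose y)
    rw [Matrix.sub_mul, Matrix.trace_sub] at this
    linarith
  have eZZ : L * Z * Z = fromBlocks (L11 * (yᵀ * y)) (L12 * (y * yᵀ)) (L21 * (yᵀ * y))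
      (L22 * (y * yᵀ)) := by
    rw [Matrix.mul_assoc, hZdef, fromBlocks_multiply, ← hLb, fromBlocks_multiply]
    simp
  have eT2 : (L * Z * Z).trace = (L11 * (yᵀ * y)).trace + (L22 * (y * yᵀ)).trace := by
    rw [eZZ, trace_fb]
  have eWZ : Fᵀ * Sg κ * F * Z = fromBlocks ((Aᵀ * Sg κ * C') * y) ((Aᵀ * Sg κ * A) * yᵀ)
      ((C'ᵀ * Sg κ * C') * y) ((C'ᵀ * Sg κ * A) * yᵀ) := by
    rw [hFS, hZdef, fromBlocks_multiply]
    simp
  have eT1 : (Fᵀ * Sg κ * F * Z).trace = 2 * (C'ᵀ * Sg κ * A * yᵀ).trace := by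
    rw [eWZ, trace_fb]
    have : ((Aᵀ * Sg κ * C') * y).trace = (C'ᵀ * Sg κ * A * yᵀ).trace := by
      rw [← Matrix.trace_transpose]
      simp only [Matrix.transpose_mul, Matrix.transpose_transpose, Sg_transpose]
      rw [Matrix.trace_mul_comm]
      simp only [Matrix.mul_assoc]
    rw [this]; ring
  rw [eT1, eT2] at key
  linarith

/-- Pointwise estimate behind the test matrix. -/
theorem test_pointwise {a c x : ℝ} (ha : 0 ≤ a) (hc : 0 ≤ c) :
    (1/2) * mm a c * x^2 ≤ 2 * (c * x * a * (c*a*x/(a+c))) - (a + c) * (c*a*x/(a+c))^2 := by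
  by_cases h : a + c = 0
  · have h1 : a = 0 := by linarith
    have h2 : c = 0 := by linarith
    subst h1; subst h2; simp [mm]
  · have hpos : 0 < a + c := lt_of_le_of_ne (by positivity) (Ne.symm h)
    have e : 2 * (c * x * a * (c*a*x/(a+c))) - (a + c) * (c*a*x/(a+c))^2 = (c*a*x)^2/(a+c) := by
      field_simp; ring
    rw [e, le_div_iff₀ hpos]
    have : (1/2)*mm a c*(a+c) ≤ (c*a)^2 := by
      rcases le_total a c with hle|hle
      · rw [mm_of_le hle]
        have : a^2*c*(c-a) ≥ 0 := mul_nonneg (by positivity) (by linarith)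
        nlinarith
      · rw [mm_of_ge hle]
        have : c^2*a*(a-c) ≥ 0 := mul_nonneg (by positivity) (by linarith)
        nlinarith
    nlinarith [sq_nonneg x]

theorem trace_dXdY {r p : Type*} [Fintype r] [DecidableEq r] [Fintype p] [DecidableEq p]
    (g : r → ℝ) (a : p → ℝ) (X Y : Matrix r p ℝ) :
    (diagonal g * X * diagonal a * Yᵀ).trace = ∑ i, ∑ j, g i * X i j * a j * Y i j := by
  simp only [Matrix.trace, Matrix.diag_apply]
  refine Finset.sum_congr rfl fun i _ => ?_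
  rw [Matrix.mul_apply]
  refine Finset.sum_congr rfl fun j _ => ?_
  rw [Matrix.mul_diagonal, Matrix.diagonal_mul, transpose_apply]

theorem trace_dYY {r p : Type*} [Fintype r] [DecidableEq r] [Fintype p] [DecidableEq p]
    (a : p → ℝ) (Y : Matrix r p ℝ) :
    (diagonal a * (Yᵀ * Y)).trace = ∑ i, ∑ j, a j * (Y i j)^2 := by
  simp only [Matrix.trace, Matrix.diag_apply]
  have h : ∀ j, (diagonal a * (Yᵀ * Y)) j j = ∑ i, a j * (Y i j)^2 := by
    intro j
    rw [Matrix.diagonal_mul, Matrix.mul_apply, Finset.mul_sum]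
    refine Finset.sum_congr rfl fun i _ => ?_
    rw [transpose_apply]; ring
  simp only [h]
  exact Finset.sum_comm

theorem svd_test (A C : Matrix (Bool × κ) (Bool × κ) ℝ) (SA : SVDL A) (SC : SVDL C) :
    ∑ r, ∑ p, mm (SA.s p) (SC.s r) * ((SC.Vᵀ * Sg κ * SA.U) r p)^2
      ≤ (3/2) * (Real.sqrt 2 * (pot ((rows (fromCols A Cᵀ) false)ᵀ * rows (fromCols A Cᵀ) false)
          + pot ((rows (fromCols A Cᵀ) true)ᵀ * rows (fromCols A Cᵀ) true))
          - pot ((fromCols A Cᵀ)ᵀ * fromCols A Cᵀ)) := by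
  set α := SA.s with hα
  set γ := SC.s with hγ
  set X := SC.Vᵀ * Sg κ * SA.U with hX
  set Y : Matrix (Bool × κ) (Bool × κ) ℝ := Matrix.of fun r p => γ r * α p * X r p / (α p + γ r)
    with hY
  set y := SC.U * Y * SA.Vᵀ with hy
  have hyt : yᵀ = SA.V * Yᵀ * SC.Uᵀ := by
    rw [hy, Matrix.transpose_mul, Matrix.transpose_mul, Matrix.transpose_transpose,
      Matrix.mul_assoc]
  set nz : Bool × κ → ℝ := fun p => if α p = 0 then 0 else 1 with hnz
  have hVA : SA.Vᵀ * SA.V = diagonal nz := SA.hV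
  have hnzα : diagonal α * diagonal nz = diagonal α := SA.ds_nz
  have hαnz : diagonal nz * diagonal α = diagonal α := SA.nz_ds
  have key := off_diag A Cᵀ y SA.PR_psd SA.PR_sq SC.PL_psd
    (by rw [Matrix.transpose_transpose]; exact SC.PL_sq)
  rw [Matrix.transpose_transpose] at key
  -- the first trace
  have T1 : (C * Sg κ * A * yᵀ).trace = ∑ r, ∑ p, γ r * X r p * α p * Y r p := by
    have e : C * Sg κ * A * yᵀ = (SC.U * diagonal γ * SC.Vᵀ) * Sg κ * (SA.U * diagonal α * SA.Vᵀ)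
        * yᵀ := by
      rw [← SC.hA, ← SA.hA]
    rw [e, hyt, ← trace_dXdY]
    calc ((SC.U * diagonal γ * SC.Vᵀ) * Sg κ * (SA.U * diagonal α * SA.Vᵀ)
          * (SA.V * Yᵀ * SC.Uᵀ)).trace
        = (SC.U * (diagonal γ * X * (diagonal α * (SA.Vᵀ * SA.V)) * Yᵀ * SC.Uᵀ)).trace := by
          rw [hX]; simp only [Matrix.mul_assoc]
      _ = ((diagonal γ * X * (diagonal α * (SA.Vᵀ * SA.V)) * Yᵀ * SC.Uᵀ) * SC.U).trace :=
          Matrix.trace_mul_comm _ _
      _ = (diagonal γ * X * (diagonal α * (SA.Vᵀ * SA.V)) * Yᵀ * (SC.Uᵀ * SC.U)).trace := by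
          simp only [Matrix.mul_assoc]
      _ = (diagonal γ * X * diagonal α * Yᵀ).trace := by
          rw [SC.hU1, hVA, hnzα, Matrix.mul_one]
  -- the second trace
  have T2 : (SA.PR * (yᵀ * y)).trace = ∑ r, ∑ p, α p * (Y r p)^2 := by
    have e : SA.PR * (yᵀ * y) = SA.V * (diagonal α * (SA.Vᵀ * SA.V) * Yᵀ * (SC.Uᵀ * SC.U) * Y)
        * SA.Vᵀ := by
      rw [hyt, hy]; unfold SVDL.PR; simp only [Matrix.mul_assoc]; rfl
    rw [e, SC.hU1, hVA, hnzα, Matrix.mul_one, ← trace_dYY]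
    calc (SA.V * (diagonal α * Yᵀ * Y) * SA.Vᵀ).trace
        = (SA.Vᵀ * (SA.V * (diagonal α * Yᵀ * Y))).trace := Matrix.trace_mul_comm _ _
      _ = ((SA.Vᵀ * SA.V) * diagonal α * (Yᵀ * Y)).trace := by simp only [Matrix.mul_assoc]
      _ = (diagonal α * (Yᵀ * Y)).trace := by rw [hVA, hαnz]
  -- the third trace
  have T3 : (SC.PL * (y * yᵀ)).trace = ∑ r, ∑ p, γ r * Y r p * nz p * Y r p := by
    have e : SC.PL * (y * yᵀ) = SC.U * (diagonal γ * (SC.Uᵀ * SC.U) * Y * (SA.Vᵀ * SA.V) * Yᵀ)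
        * SC.Uᵀ := by
      rw [hyt, hy]; unfold SVDL.PL; simp only [Matrix.mul_assoc]; rfl
    rw [e, SC.hU1, hVA, Matrix.mul_one, ← trace_dXdY]
    calc (SC.U * (diagonal γ * Y * diagonal nz * Yᵀ) * SC.Uᵀ).trace
        = (SC.Uᵀ * (SC.U * (diagonal γ * Y * diagonal nz * Yᵀ))).trace := Matrix.trace_mul_comm _ _
      _ = ((SC.Uᵀ * SC.U) * (diagonal γ * Y * diagonal nz * Yᵀ)).trace := by
          simp only [Matrix.mul_assoc]
      _ = (diagonal γ * Y * diagonal nz * Yᵀ).trace := by rw [SC.hU1, Matrix.one_mul]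
  have hα0 : ∀ p, 0 ≤ α p := SA.hs
  have hγ0 : ∀ r, 0 ≤ γ r := SC.hs
  have T3le : ∑ r, ∑ p, γ r * Y r p * nz p * Y r p ≤ ∑ r, ∑ p, γ r * (Y r p)^2 := by
    refine Finset.sum_le_sum fun r _ => Finset.sum_le_sum fun p _ => ?_
    have hn : nz p ≤ 1 := by
      simp only [hnz]; split_ifs <;> norm_num
    have h1 : 0 ≤ γ r * (Y r p)^2 := mul_nonneg (hγ0 r) (sq_nonneg _)
    have : γ r * Y r p * nz p * Y r p = nz p * (γ r * (Y r p)^2) := by ring
    rw [this]
    exact mul_le_of_le_one_left h1 hn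
  have hpt : ∑ r, ∑ p, (1/2) * mm (α p) (γ r) * (X r p)^2
      ≤ 2 * (∑ r, ∑ p, γ r * X r p * α p * Y r p) - ∑ r, ∑ p, α p * (Y r p)^2
        - ∑ r, ∑ p, γ r * (Y r p)^2 := by
    rw [Finset.mul_sum, ← Finset.sum_sub_distrib, ← Finset.sum_sub_distrib]
    refine Finset.sum_le_sum fun r _ => ?_
    rw [Finset.mul_sum, ← Finset.sum_sub_distrib, ← Finset.sum_sub_distrib]
    refine Finset.sum_le_sum fun p _ => ?_
    have := test_pointwise (x := X r p) (hα0 p) (hγ0 r)
    have eY : Y r p = γ r * α p * X r p / (α p + γ r) := rfl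
    rw [eY]
    linarith
  rw [T1, T2] at key
  rw [T3] at key
  have hsum : (1/2:ℝ) * ∑ r, ∑ p, mm (α p) (γ r) * (X r p)^2
      = ∑ r, ∑ p, (1/2) * mm (α p) (γ r) * (X r p)^2 := by
    rw [Finset.mul_sum]
    refine Finset.sum_congr rfl fun r _ => ?_
    rw [Finset.mul_sum]
    refine Finset.sum_congr rfl fun p _ => ?_
    ring
  linarith

/-- Splitting the rows of the concatenated matrix into the child blocks. -/
theorem rows_split (A C : Matrix (Bool × κ) (Bool × κ) ℝ) (a : Bool) :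
    rows (fromCols A Cᵀ) a * (rows (fromCols A Cᵀ) a)ᵀ
      = fromCols (blk A a false) (blk C (xor a false) a)ᵀ
          * (fromCols (blk A a false) (blk C (xor a false) a)ᵀ)ᵀ
        + fromCols (blk A a true) (blk C (xor a true) a)ᵀ
          * (fromCols (blk A a true) (blk C (xor a true) a)ᵀ)ᵀ := by
  ext x x'
  simp only [Matrix.add_apply, Matrix.mul_apply, transpose_apply, rows, Fintype.sum_sum_type,
    fromCols_apply_inl, fromCols_apply_inr, Fintype.sum_prod_type, Fintype.sum_bool, blk]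
  cases a <;> simp <;> ring

theorem rise_le (A C : Matrix (Bool × κ) (Bool × κ) ℝ) :
    Real.sqrt 2 * (pot ((rows (fromCols A Cᵀ) false)ᵀ * rows (fromCols A Cᵀ) false)
        + pot ((rows (fromCols A Cᵀ) true)ᵀ * rows (fromCols A Cᵀ) true))
      ≤ 2 * ∑ a : Bool, ∑ b : Bool, P3 (fromCols (blk A a b) (blk C (xor a b) a)ᵀ) := by
  have hs : Real.sqrt 2 * Real.sqrt 2 = 2 := Real.mul_self_sqrt (by norm_num)
  have hs0 : 0 ≤ Real.sqrt 2 := Real.sqrt_nonneg _
  have step : ∀ a : Bool, Real.sqrt 2 * pot ((rows (fromCols A Cᵀ) a)ᵀ * rows (fromCols A Cᵀ) a)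
      ≤ 2 * ∑ b : Bool, P3 (fromCols (blk A a b) (blk C (xor a b) a)ᵀ) := by
    intro a
    rw [pot_swap, rows_split, Fintype.sum_bool]
    have h := pot_add_le
      (psd_mul_transpose (fromCols (blk A a false) (blk C (xor a false) a)ᵀ))
      (psd_mul_transpose (fromCols (blk A a true) (blk C (xor a true) a)ᵀ))
    simp only [P3]
    rw [pot_swap (fromCols (blk A a true) _), pot_swap (fromCols (blk A a false) _)]
    have := mul_le_mul_of_nonneg_left h hs0
    rw [← mul_assoc, hs] at this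
    linarith
  rw [Fintype.sum_bool, mul_add, mul_add]
  have h1 := step true
  have h2 := step false
  linarith

/-- The inequality at one vertex. -/
theorem vertex (A C : Matrix (Bool × κ) (Bool × κ) ℝ) (SA : SVDL A) (SC : SVDL C) :
    ∑ r, ∑ p, mm (SA.s p) (SC.s r) * ((SC.Vᵀ * Sg κ * SA.U) r p)^2
      ≤ (3/2) * (2 * ∑ a : Bool, ∑ b : Bool, P3 (fromCols (blk A a b) (blk C (xor a b) a)ᵀ)
          - P3 (fromCols A Cᵀ)) := by
  have h1 := svd_test A C SA SC
  have h2 := rise_le A C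
  have e : P3 (fromCols A Cᵀ) = pot ((fromCols A Cᵀ)ᵀ * fromCols A Cᵀ) := rfl
  rw [e]
  linarith

end Vale.Agent.Lib.P075
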